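import Mathlib

open Set MeasureTheory Measure Filter Topology Function Metric
open scoped NNReal ENNReal RealInnerProductSpace

namespace Vale.Agent.P084

/-- A Lipschitz map whose derivative is a contraction almost everywhere on an open convex set is
nonexpansive there. -/
theorem norm_sub_le_of_ae_fderiv {E F : Type*} [NormedAddCommGroup E] [NormedSpace ℝ E]
    [FiniteDimensional ℝ E] [MeasurableSpace E] [BorelSpace E] (μ : Measure E)
    [IsAddHaarMeasure μ] [NormedAddCommGroup F] [NormedSpace ℝ F] [FiniteDimensional ℝ F]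
    {Φ : E → F} {K : ℝ≥0} (hΦ : LipschitzWith K Φ) {U : Set E} (hU : IsOpen U)
    (hUc : Convex ℝ U) (h : ∀ᵐ x ∂μ, x ∈ U → ∀ v, ‖fderiv ℝ Φ x v‖ ≤ ‖v‖) {x y : E}
    (hx : x ∈ U) (hy : y ∈ U) : ‖Φ y - Φ x‖ ≤ ‖y - x‖ := by
  borelize F
  have : CompleteSpace F := FiniteDimensional.complete ℝ F
  by_contra hcon
  push Not at hcon
  obtain ⟨g, hg1, hg⟩ := exists_dual_vector'' ℝ (Φ y - Φ x)
  set v := y - x with hv
  let φ : E → ℝ := fun z => g (Φ z)
  have hφ : LipschitzWith (‖g‖₊ * K) φ := g.lipschitz.comp hΦ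
  set η : ℝ := (‖Φ y - Φ x‖ - ‖v‖) / 2 with hη
  have hη0 : 0 < η := by rw [hη]; linarith
  have hev : ∀ᶠ a in 𝓝 (0 : E), (x + a ∈ U ∧ y + a ∈ U) ∧ ‖v‖ + η < φ (y + a) - φ (x + a) := by
    refine Eventually.and (Eventually.and ?_ ?_) ?_
    · exact (continuous_const.add continuous_id).continuousAt.eventually
        (hU.mem_nhds (by simpa using hx))
    · exact (continuous_const.add continuous_id).continuousAt.eventually
        (hU.mem_nhds (by simpa using hy))
    · have hc : Continuous fun a => φ (y + a) - φ (x + a) :=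
        (hφ.continuous.comp (continuous_const.add continuous_id)).sub
          (hφ.continuous.comp (continuous_const.add continuous_id))
      refine hc.continuousAt.eventually (lt_mem_nhds ?_)
      have : φ y - φ x = ‖Φ y - Φ x‖ := by
        simp only [φ]
        rw [← map_sub, hg]; rfl
      simp only [add_zero]
      rw [this, hη]; linarith
  obtain ⟨δ, hδ, hball⟩ := Metric.eventually_nhds_iff_ball.1 hev
  set B : Set E := ball 0 δ with hB
  have hBfin : μ B < ∞ := measure_ball_lt_top
  have hBpos : 0 < μ.real B := ENNReal.toReal_pos (measure_ball_pos μ _ hδ).ne' hBfin.ne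
  have : IsFiniteMeasure (μ.restrict B) := ⟨by simpa using hBfin⟩
  have hcont : ∀ s : ℝ, Continuous fun a => φ (x + s • v + a) := fun s =>
    hφ.continuous.comp (continuous_const.add continuous_id)
  have hintB : ∀ s : ℝ, Integrable (fun a => φ (x + s • v + a)) (μ.restrict B) := fun s =>
    ((hcont s).continuousOn.integrableOn_compact (isCompact_closedBall 0 δ)).mono_set
      ball_subset_closedBall
  let H : ℝ → ℝ := fun s => ∫ a in B, φ (x + s • v + a) ∂μ
  have hder : ∀ s : ℝ, Integrable (fun a => g (fderiv ℝ Φ (x + s • v + a) v)) (μ.restrict B) ∧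
      HasDerivAt H (∫ a in B, g (fderiv ℝ Φ (x + s • v + a) v) ∂μ) s := by
    intro s
    refine hasDerivAt_integral_of_dominated_loc_of_lip (μ := μ.restrict B)
      (F := fun s a => φ (x + s • v + a)) (bound := fun _ => (‖g‖₊ * K * ‖v‖₊ : ℝ≥0))
      (s := univ) univ_mem (Eventually.of_forall fun s => (hcont s).aestronglyMeasurable)
      (hintB s) ?_ ?_ (integrable_const _) ?_
    · refine (g.continuous.measurable.comp
        ((measurable_fderiv_apply_const ℝ Φ v).comp ?_)).aestronglyMeasurable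
      exact (continuous_const.add continuous_id).measurable
    · refine Eventually.of_forall fun a => ?_
      rw [Real.nnabs_coe]
      refine (hφ.comp (LipschitzWith.of_dist_le_mul fun s t => ?_)).lipschitzOnWith
      rw [dist_add_right, dist_add_left, dist_eq_norm, ← sub_smul, norm_smul, dist_eq_norm,
        mul_comm]
      rfl
    · have h1 : ∀ᵐ a ∂μ, DifferentiableAt ℝ Φ (x + s • v + a) :=
        (measurePreserving_add_left μ (x + s • v)).quasiMeasurePreserving.ae
          hΦ.ae_differentiableAt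
      filter_upwards [ae_restrict_of_ae h1] with a ha
      have h2 : HasDerivAt (fun s : ℝ => x + s • v + a) v s := by
        simpa using (((hasDerivAt_id s).smul_const v).const_add x).add_const a
      exact g.hasFDerivAt.comp_hasDerivAt s (ha.hasFDerivAt.comp_hasDerivAt s h2)
  have hbound : ∀ s ∈ interior (Icc (0 : ℝ) 1), deriv H s ≤ ‖v‖ * μ.real B := by
    intro s hs
    have hs' : s ∈ Icc (0 : ℝ) 1 := interior_subset hs
    rw [(hder s).2.deriv]
    have h1 : ∀ᵐ a ∂μ, x + s • v + a ∈ U → ∀ w, ‖fderiv ℝ Φ (x + s • v + a) w‖ ≤ ‖w‖ :=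
      (measurePreserving_add_left μ (x + s • v)).quasiMeasurePreserving.ae h
    calc _ ≤ ∫ _ in B, ‖v‖ ∂μ := by
          refine integral_mono_ae (hder s).1 (integrable_const _) ?_
          filter_upwards [ae_restrict_of_ae h1, ae_restrict_mem measurableSet_ball] with a ha haB
          have hmem : x + s • v + a ∈ U := by
            have := hUc (hball a haB).1.1 (hball a haB).1.2 (sub_nonneg.2 hs'.2) hs'.1 (by ring)
            convert this using 1
            rw [hv]; module
          calc g (fderiv ℝ Φ (x + s • v + a) v) ≤ ‖g (fderiv ℝ Φ (x + s • v + a) v)‖ :=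
                le_abs_self _
            _ ≤ ‖g‖ * ‖fderiv ℝ Φ (x + s • v + a) v‖ := g.le_opNorm _
            _ ≤ 1 * ‖v‖ := by gcongr; exact ha hmem v
            _ = ‖v‖ := one_mul _
      _ = _ := by simp [mul_comm]
  have hmv := (convex_Icc (0 : ℝ) 1).image_sub_le_mul_sub_of_deriv_le
    (fun s _ => (hder s).2.continuousAt.continuousWithinAt)
    (fun s _ => (hder s).2.differentiableAt.differentiableWithinAt) hbound
    0 (by simp) 1 (by simp) zero_le_one
  have hlow : (‖v‖ + η) * μ.real B ≤ H 1 - H 0 := by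
    simp only [H]
    rw [← integral_sub (hintB 1) (hintB 0)]
    calc (‖v‖ + η) * μ.real B = ∫ _ in B, (‖v‖ + η) ∂μ := by simp [mul_comm]
      _ ≤ _ := by
        refine integral_mono_ae (integrable_const _) ((hintB 1).sub (hintB 0)) ?_
        filter_upwards [ae_restrict_mem measurableSet_ball] with a haB
        have := (hball a haB).2.le
        simpa [hv] using this
  nlinarith [mul_pos hη0 hBpos]

/-- Products of nonnegative numbers with mean square at most one. -/
theorem prod_le_one_and_eq {ι : Type*} [Fintype ι] {a : ι → ℝ} (ha : ∀ i, 0 ≤ a i)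
    (hs : ∑ i, a i ^ 2 ≤ Fintype.card ι) :
    ∏ i, a i ≤ 1 ∧ (1 ≤ ∏ i, a i → ∀ i, a i ≤ 1) := by
  classical
  have hexp : ∀ i, a i ≤ Real.exp (a i - 1) := fun i => by
    have := Real.add_one_le_exp (a i - 1); linarith
  have hsum : ∑ i, (a i - 1) + (1 / 2) * ∑ i, (a i - 1) ^ 2 ≤ 0 := by
    have : ∑ i, (a i - 1) + (1 / 2) * ∑ i, (a i - 1) ^ 2
        = (1 / 2) * (∑ i, a i ^ 2 - Fintype.card ι) := by
      rw [Finset.mul_sum, ← Finset.sum_add_distrib, ← Finset.card_univ, Finset.card_eq_sum_ones,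
        Nat.cast_sum, ← Finset.sum_sub_distrib, Finset.mul_sum]
      refine Finset.sum_congr rfl fun i _ => ?_
      push_cast; ring
    rw [this]; linarith
  have hprod : ∏ i, a i ≤ Real.exp (∑ i, (a i - 1)) := by
    rw [Real.exp_sum]
    exact Finset.prod_le_prod (fun i _ => ha i) fun i _ => hexp i
  have hsq : 0 ≤ ∑ i, (a i - 1) ^ 2 := Finset.sum_nonneg fun i _ => sq_nonneg _
  refine ⟨hprod.trans (Real.exp_le_one_iff.2 (by linarith)), fun h1 i => ?_⟩
  have h2 : 0 ≤ ∑ i, (a i - 1) := Real.one_le_exp_iff.1 (h1.trans hprod)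
  have h3 : ∑ i, (a i - 1) ^ 2 = 0 := by linarith
  have h4 := (Finset.sum_eq_zero_iff_of_nonneg fun i _ => sq_nonneg (a i - 1)).1 h3 i
    (Finset.mem_univ _)
  have h5 : a i - 1 = 0 := pow_eq_zero_iff (two_ne_zero) |>.1 h4
  linarith

/-- Hadamard's inequality with the equality case, for an operator of small Hilbert-Schmidt norm. -/
theorem abs_det_le_one_and_contraction {n : ℕ} (hn : 0 < n)
    (M : EuclideanSpace ℝ (Fin n) →L[ℝ] EuclideanSpace ℝ (Fin n))
    (hM : ∀ b : OrthonormalBasis (Fin n) ℝ (EuclideanSpace ℝ (Fin n)), ∑ j, ‖M (b j)‖ ^ 2 ≤ n) :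
    |M.det| ≤ 1 ∧ (1 ≤ |M.det| → ∀ v, ‖M v‖ ≤ ‖v‖) := by
  classical
  have : Fact (Module.finrank ℝ (EuclideanSpace ℝ (Fin n)) = n) := ⟨by simp⟩
  have hH : ∀ b : OrthonormalBasis (Fin n) ℝ (EuclideanSpace ℝ (Fin n)),
      |M.det| ≤ ∏ j, ‖M (b j)‖ := by
    intro b
    have h1 := b.toBasis.orientation.abs_volumeForm_apply_le (fun j => M (b j))
    rw [Orientation.volumeForm_robust' _ b] at h1
    have h2 := b.toBasis.det_comp (M : EuclideanSpace ℝ (Fin n) →ₗ[ℝ] _) b.toBasis
    rw [Module.Basis.det_self, mul_one] at h2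
    rw [ContinuousLinearMap.det, ← h2]
    exact h1
  have hP := fun b : OrthonormalBasis (Fin n) ℝ (EuclideanSpace ℝ (Fin n)) =>
    prod_le_one_and_eq (a := fun j => ‖M (b j)‖) (fun j => norm_nonneg _)
      (by simpa using hM b)
  refine ⟨(hH (EuclideanSpace.basisFun _ _)).trans (hP _).1, fun h1 v => ?_⟩
  rcases eq_or_ne v 0 with rfl | hv
  · simp
  have hv' : ‖v‖ ≠ 0 := norm_ne_zero_iff.2 hv
  let i₀ : Fin n := ⟨0, hn⟩
  have ho : Orthonormal ℝ (({i₀} : Set (Fin n)).domRestrict fun _ : Fin n => ‖v‖⁻¹ • v) := by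
    refine ⟨fun _ => ?_, fun i j hij => (hij (Subsingleton.elim _ _)).elim⟩
    simp [norm_smul, hv']
  obtain ⟨b, hb⟩ := ho.exists_orthonormalBasis_extension_of_card_eq (by simp)
  have h2 := (hP b).2 (h1.trans (hH b)) i₀
  rw [hb i₀ rfl, map_smul, norm_smul, norm_inv, norm_norm,
    inv_mul_le_iff₀ (norm_pos_iff.2 hv), mul_one] at h2
  exact h2

end Vale.Agent.P084
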