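import Mathlib

open Set Filter Topology

namespace Vale.Agent.P084

theorem sum_bound {H D₁ D₂ τ l m : ℝ} (hH : 0 < H) (h1 : D₁ ^ 2 ≤ H ^ 2 + τ ^ 2 + 2 * H * l)
    (h2 : D₂ ^ 2 ≤ H ^ 2 + τ ^ 2 - 2 * H * l) (hτ : |τ| ≤ m) (hl : |l| ≤ m) (hm : m ≤ H / 2) :
    D₁ + D₂ ≤ 2 * H + (τ ^ 2 - l ^ 2) / H + 2 * m ^ 4 / H ^ 3 := by
  have hl' := abs_le.1 hl
  have hm0 : 0 ≤ m := (abs_nonneg _).trans hl
  have hc1 : 0 < H + l := by linarith [hl'.1]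
  have hc2 : 0 < H - l := by linarith [hl'.2]
  have e1 : 2 * (H + l) * D₁ ≤ 2 * (H + l) ^ 2 + (τ ^ 2 - l ^ 2) := by
    nlinarith [sq_nonneg (D₁ - (H + l))]
  have e2 : 2 * (H - l) * D₂ ≤ 2 * (H - l) ^ 2 + (τ ^ 2 - l ^ 2) := by
    nlinarith [sq_nonneg (D₂ - (H - l))]
  have e3 : (H ^ 2 - l ^ 2) * (D₁ + D₂ - 2 * H) ≤ H * (τ ^ 2 - l ^ 2) := by
    nlinarith [mul_le_mul_of_nonneg_left e1 hc2.le, mul_le_mul_of_nonneg_left e2 hc1.le]
  have hτ2 : τ ^ 2 ≤ m ^ 2 := sq_le_sq' (abs_le.1 hτ).1 (abs_le.1 hτ).2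
  have hl2 : l ^ 2 ≤ m ^ 2 := sq_le_sq' hl'.1 hl'.2
  have hm2 : m ^ 2 ≤ H ^ 2 / 4 := by nlinarith
  have hpos : 0 < H ^ 2 - l ^ 2 := by nlinarith
  have key : H ^ 3 * (H * (τ ^ 2 - l ^ 2)) ≤
      (H ^ 2 - l ^ 2) * (H ^ 2 * (τ ^ 2 - l ^ 2) + 2 * m ^ 4) := by
    have a1 : l ^ 2 * (τ ^ 2 - l ^ 2) ≤ m ^ 4 := by
      nlinarith [mul_le_mul hl2 hτ2 (sq_nonneg τ) (sq_nonneg m), sq_nonneg (l ^ 2)]
    have a2 : H ^ 2 * (l ^ 2 * (τ ^ 2 - l ^ 2)) ≤ H ^ 2 * m ^ 4 :=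
      mul_le_mul_of_nonneg_left a1 (sq_nonneg H)
    have a3 : H ^ 2 * m ^ 4 ≤ 2 * (H ^ 2 - l ^ 2) * m ^ 4 :=
      mul_le_mul_of_nonneg_right (by nlinarith) (by positivity)
    nlinarith
  have e4 : H ^ 3 * (D₁ + D₂ - 2 * H) ≤ H ^ 2 * (τ ^ 2 - l ^ 2) + 2 * m ^ 4 := by
    have : (H ^ 2 - l ^ 2) * (H ^ 3 * (D₁ + D₂ - 2 * H)) ≤
        (H ^ 2 - l ^ 2) * (H ^ 2 * (τ ^ 2 - l ^ 2) + 2 * m ^ 4) := by
      have := mul_le_mul_of_nonneg_left e3 (pow_pos hH 3).le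
      nlinarith
    exact le_of_mul_le_mul_left this hpos
  have : (τ ^ 2 - l ^ 2) / H + 2 * m ^ 4 / H ^ 3 =
      (H ^ 2 * (τ ^ 2 - l ^ 2) + 2 * m ^ 4) / H ^ 3 := by
    field_simp
  rw [add_assoc, this, ← sub_le_iff_le_add', le_div_iff₀ (pow_pos hH 3)]
  linarith

theorem sqrt_shift {x h α A : ℝ} (hx : 0 ≤ x) (hh : 0 ≤ h) (hα : 0 ≤ α) (hA : 0 ≤ A)
    (h1 : x ≤ α ^ 2) (h2 : h ≤ A ^ 2 - α ^ 2) : √(x * (x + h)) + (α ^ 2 - x) ≤ α * A := by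
  have h0 : 0 ≤ x * (x + h) := by positivity
  have hs := Real.sq_sqrt h0
  have hs0 := Real.sqrt_nonneg (x * (x + h))
  have hs1 : 2 * √(x * (x + h)) ≤ 2 * x + h := by
    apply le_of_sq_le_sq _ (by positivity)
    nlinarith [sq_nonneg h]
  apply le_of_sq_le_sq _ (by positivity)
  have e : 0 ≤ α ^ 2 - x := by linarith
  nlinarith [mul_le_mul_of_nonneg_left hs1 e, mul_le_mul_of_nonneg_left h2 (sq_nonneg α)]

theorem key_UV {x x' H K τ U V : ℝ} (hx : 0 < x) (hx' : 0 < x') (hH : 0 < H) (hK : 0 < K)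
    (hτ : τ ^ 2 = (x - x') ^ 2) (hE : H ^ 2 = τ ^ 2 + K * (x + x')) (hle : H ≤ x + x')
    (hU0 : 0 < U) (hV0 : 0 < V) (hU2 : U ^ 2 = (x + H) * (x' + H)) (hV2 : V ^ 2 = x * x') :
    x + x' + K / 4 < U + V := by
  have hσ : 0 < x + x' := by positivity
  have hV : (x + x') ^ 2 - τ ^ 2 ≤ 2 * V * (x + x') := by
    have h4 : (x + x') ^ 2 - τ ^ 2 = 2 * V * (2 * V) := by linear_combination -hτ - 4 * hV2
    have h5 : 2 * V ≤ x + x' := by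
      apply le_of_sq_le_sq _ hσ.le
      nlinarith [sq_nonneg (x - x')]
    rw [h4]
    exact mul_le_mul_of_nonneg_left h5 (by positivity)
  have hU : (x + x') ^ 2 + H ^ 2 < 2 * U * (x + x') := by
    apply lt_of_pow_lt_pow_left₀ 2 (by positivity)
    have h4 : (2 * U * (x + x')) ^ 2 = ((x + x' + 2 * H) ^ 2 - τ ^ 2) * (x + x') ^ 2 := by
      linear_combination (4 * hU2 + hτ) * (x + x') ^ 2
    have h5 : τ ^ 2 ≤ H ^ 2 := by linarith [mul_pos hK hσ]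
    have h6 : H ^ 2 ≤ (x + x') ^ 2 := pow_le_pow_left₀ hH.le hle 2
    rw [h4]
    generalize x + x' = σ at *
    have h7 : 0 < σ * H * σ ^ 2 := by positivity
    have h8 := mul_le_mul_of_nonneg_right h5 (sq_nonneg σ)
    have h9 := mul_le_mul_of_nonneg_right h6 (sq_nonneg H)
    nlinarith
  have : (x + x' + K / 4) * (x + x') < (U + V) * (x + x') := by
    have := mul_pos hK hσ
    generalize x + x' = σ at *
    nlinarith
  exact lt_of_mul_lt_mul_right this hσ.le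

theorem key_ineq {x x' H K τ : ℝ} (hx : 0 < x) (hx' : 0 < x') (hH : 0 < H) (hK : 0 < K)
    (hτ : τ ^ 2 = (x - x') ^ 2) (hE : H ^ 2 = τ ^ 2 + K * (x + x')) (hle : H ≤ x + x') :
    (1 - ((τ - K / 2) / H) ^ 2) * (1 - ((τ + K / 2) / H) ^ 2) * (x + x' + H) ^ 2 <
      (1 - (τ - K / 2) / H * ((τ + K / 2) / H)) ^ 2 *
        (√(x * (x + H)) + √(x' * (x' + H))) ^ 2 := by
  rw [Real.sqrt_mul hx.le, Real.sqrt_mul hx'.le]
  obtain ⟨e, he0, he⟩ : ∃ e, 0 < e ∧ √x = e := ⟨_, Real.sqrt_pos.2 hx, rfl⟩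
  obtain ⟨e', he0', he'⟩ : ∃ e, 0 < e ∧ √x' = e := ⟨_, Real.sqrt_pos.2 hx', rfl⟩
  obtain ⟨E, hE0, hE1⟩ : ∃ e, 0 < e ∧ √(x + H) = e := ⟨_, Real.sqrt_pos.2 (by positivity), rfl⟩
  obtain ⟨E', hE0', hE1'⟩ : ∃ e, 0 < e ∧ √(x' + H) = e :=
    ⟨_, Real.sqrt_pos.2 (by positivity), rfl⟩
  have s1 : e ^ 2 = x := by rw [← he]; exact Real.sq_sqrt hx.le
  have s2 : e' ^ 2 = x' := by rw [← he']; exact Real.sq_sqrt hx'.le
  have s3 : E ^ 2 = x + H := by rw [← hE1]; exact Real.sq_sqrt (by positivity)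
  have s4 : E' ^ 2 = x' + H := by rw [← hE1']; exact Real.sq_sqrt (by positivity)
  rw [he, he', hE1, hE1']
  have hUV : x + x' + K / 4 < E * E' + e * e' :=
    key_UV hx hx' hH hK hτ hE hle (by positivity) (by positivity) (by rw [mul_pow, s3, s4])
      (by rw [mul_pow, s1, s2])
  have hW : (E * E' - e * e') * (E * E' + e * e') = H * (x + x' + H) := by
    have : (E * E' - e * e') * (E * E' + e * e') = E ^ 2 * E' ^ 2 - e ^ 2 * e' ^ 2 := by ring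
    rw [this, s1, s2, s3, s4]; ring
  have hW0 : 0 < E * E' - e * e' := by
    have : 0 < (E * E' - e * e') * (E * E' + e * e') := by rw [hW]; positivity
    exact (pos_iff_pos_of_mul_pos this).2 (by positivity)
  have hL : (e * E + e' * E') ^ 2 = (x + x' + H) ^ 2 - (E * E' - e * e') ^ 2 := by
    have : (e * E + e' * E') ^ 2 + (E * E' - e * e') ^ 2 =
        (e ^ 2 + E' ^ 2) * (E ^ 2 + e' ^ 2) := by ring
    rw [s1, s2, s3, s4] at this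
    linear_combination this
  have hb : 1 - (τ - K / 2) / H * ((τ + K / 2) / H) = K * (x + x' + K / 4) / H ^ 2 := by
    field_simp
    linear_combination 16 * hE
  have hac : (1 - ((τ - K / 2) / H) ^ 2) * (1 - ((τ + K / 2) / H) ^ 2) =
      (1 - (τ - K / 2) / H * ((τ + K / 2) / H)) ^ 2 - (K / H) ^ 2 := by
    field_simp
    ring
  rw [hac, hL, hb]
  generalize E * E' - e * e' = W at *
  have h8 : K * (x + x' + K / 4) / H ^ 2 * W < K / H * (x + x' + H) := by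
    have h9 : (x + x' + K / 4) * W < H * (x + x' + H) := by
      rw [← hW, mul_comm]; exact mul_lt_mul_of_pos_left hUV hW0
    have : K * (x + x' + K / 4) / H ^ 2 * W = K / H ^ 2 * ((x + x' + K / 4) * W) := by ring
    rw [this]
    calc K / H ^ 2 * ((x + x' + K / 4) * W)
        < K / H ^ 2 * (H * (x + x' + H)) := mul_lt_mul_of_pos_left h9 (by positivity)
      _ = K / H * (x + x' + H) := by field_simp
  have h10 := pow_lt_pow_left₀ h8 (by positivity) two_ne_zero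
  rw [mul_pow, mul_pow] at h10
  linarith

theorem abs_coef_lt {x x' H K τ : ℝ} (hx : 0 < x) (hx' : 0 < x') (hH : 0 < H) (hK : 0 < K)
    (hE : H ^ 2 = τ ^ 2 + K * (x + x')) (hle : H ≤ x + x') :
    |(τ - K / 2) / H| < 1 ∧ |(τ + K / 2) / H| < 1 := by
  have hσ : 0 < x + x' := by positivity
  have h1 : |τ| < H := by
    apply abs_lt_of_sq_lt_sq _ hH.le
    nlinarith [mul_pos hK hσ]
  have h2 : K / 2 + |τ| < H := by
    have h3 : K * H ≤ (H - |τ|) * (H + |τ|) := by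
      have := sq_abs τ
      nlinarith
    have h4 : (H - |τ|) * (H + |τ|) < (H - |τ|) * (2 * H) :=
      mul_lt_mul_of_pos_left (by linarith) (by linarith)
    have : K * H < (2 * (H - |τ|)) * H := by nlinarith
    have := lt_of_mul_lt_mul_right this hH.le
    linarith
  have h5 := neg_abs_le τ
  have h6 := le_abs_self τ
  constructor <;> rw [abs_div, abs_of_pos hH, div_lt_one hH, abs_lt] <;> constructor <;> linarith

theorem exists_gap {x x' H K τ : ℝ} (hx : 0 < x) (hx' : 0 < x') (hH : 0 < H) (hK : 0 < K)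
    (hτ : τ ^ 2 = (x - x') ^ 2) (hE : H ^ 2 = τ ^ 2 + K * (x + x')) (hle : H ≤ x + x') :
    ∃ ϖ γ η₀ : ℝ, 0 < ϖ ∧ 0 < γ ∧ 0 < η₀ ∧ η₀ ≤ H ∧ ∀ α A β B : ℝ, 0 ≤ α → 0 ≤ A → 0 ≤ β →
      0 ≤ B → x ≤ α ^ 2 → x' ≤ B ^ 2 → H - η₀ ≤ A ^ 2 - α ^ 2 → A ^ 2 - α ^ 2 ≤ H →
      H - η₀ ≤ β ^ 2 - B ^ 2 → β ^ 2 - B ^ 2 ≤ H →
      ((α - ϖ * A) ^ 2 - ((τ - K / 2) / H * α - (τ + K / 2) / H * (ϖ * A)) ^ 2) +
        ((β - ϖ * B) ^ 2 - ((τ - K / 2) / H * β - (τ + K / 2) / H * (ϖ * B)) ^ 2) ≤ -γ := by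
  have hk := key_ineq hx hx' hH hK hτ hE hle
  obtain ⟨hp, hq⟩ := abs_coef_lt hx hx' hH hK hE hle
  generalize (τ - K / 2) / H = p at *
  generalize (τ + K / 2) / H = q at *
  have ha : 0 < 1 - p ^ 2 := by have := (sq_lt_one_iff_abs_lt_one p).2 hp; linarith
  have hc : 0 < 1 - q ^ 2 := by have := (sq_lt_one_iff_abs_lt_one q).2 hq; linarith
  have hb : 0 < 1 - p * q := by nlinarith [sq_nonneg (p - q)]
  have hcont : Continuous fun η : ℝ =>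
      (1 - p * q) ^ 2 * (√(x * (x + (H - η))) + √(x' * (x' + (H - η)))) ^ 2 := by fun_prop
  have hev : ∀ᶠ η in 𝓝[>] (0 : ℝ), (1 - p ^ 2) * (1 - q ^ 2) * (x + x' + H) ^ 2 <
      (1 - p * q) ^ 2 * (√(x * (x + (H - η))) + √(x' * (x' + (H - η)))) ^ 2 := by
    apply nhdsWithin_le_nhds
    apply (hcont.tendsto 0).eventually (lt_mem_nhds _)
    simpa using hk
  obtain ⟨η₀, h1, h2⟩ := (hev.and (Ioc_mem_nhdsGT hH)).exists
  obtain ⟨Sg, hSg⟩ : ∃ S, S = √(x * (x + (H - η₀))) + √(x' * (x' + (H - η₀))) := ⟨_, rfl⟩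
  rw [← hSg] at h1
  have hd : 0 < x + x' + H := by positivity
  have hη : 0 ≤ H - η₀ := by linarith [h2.2]
  have hS0 : 0 < Sg := by
    have := Real.sqrt_pos.2 (show 0 < x * (x + (H - η₀)) by positivity)
    have := Real.sqrt_nonneg (x' * (x' + (H - η₀)))
    linarith
  have hS1 : Sg ≤ x + x' + H := by
    have a1 : √(x * (x + (H - η₀))) ≤ x + H / 2 :=
      Real.sqrt_le_iff.2 ⟨by positivity, by nlinarith [h2.1, sq_nonneg H]⟩
    have a2 : √(x' * (x' + (H - η₀))) ≤ x' + H / 2 :=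
      Real.sqrt_le_iff.2 ⟨by positivity, by nlinarith [h2.1, sq_nonneg H]⟩
    linarith
  obtain ⟨ϖ, hϖ⟩ : ∃ w, w = (1 - p * q) * Sg / ((1 - q ^ 2) * (x + x' + H)) := ⟨_, rfl⟩
  have hϖ0 : 0 < ϖ := by rw [hϖ]; positivity
  have hneg : ((1 - p ^ 2) + (1 - q ^ 2) * ϖ ^ 2) * (x + x' + H) - 2 * (1 - p * q) * ϖ * Sg < 0 := by
    have : ((1 - p ^ 2) + (1 - q ^ 2) * ϖ ^ 2) * (x + x' + H) - 2 * (1 - p * q) * ϖ * Sg =
        ((1 - p ^ 2) * (1 - q ^ 2) * (x + x' + H) ^ 2 - (1 - p * q) ^ 2 * Sg ^ 2) /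
          ((1 - q ^ 2) * (x + x' + H)) := by
      rw [hϖ]; field_simp; ring
    rw [this]
    exact div_neg_of_neg_of_pos (by linarith) (by positivity)
  have hslope : (1 - p ^ 2) + (1 - q ^ 2) * ϖ ^ 2 ≤ 2 * (1 - p * q) * ϖ := by
    have h3 : 2 * (1 - p * q) * ϖ * Sg ≤ 2 * (1 - p * q) * ϖ * (x + x' + H) :=
      mul_le_mul_of_nonneg_left hS1 (by positivity)
    exact le_of_mul_le_mul_right (by linarith) hd
  refine ⟨ϖ, _, η₀, hϖ0, neg_pos.2 hneg, h2.1, h2.2, ?_⟩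
  intro α A β B hα hA hβ hB k1 k2 k3 k4 k5 k6
  have g1 := sqrt_shift hx.le hη hα hA k1 k3
  have g2 := sqrt_shift hx'.le hη hB hβ k2 k5
  have g3 : Sg + (α ^ 2 - x) + (B ^ 2 - x') ≤ α * A + β * B := by rw [hSg]; linarith
  have g4 := mul_le_mul_of_nonneg_left g3 (show 0 ≤ 2 * (1 - p * q) * ϖ by positivity)
  have g5 := mul_le_mul_of_nonneg_left hslope (show 0 ≤ (α ^ 2 - x) + (B ^ 2 - x') by linarith)
  have g6 := mul_le_mul_of_nonneg_left k6 ha.le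
  have g7 := mul_le_mul_of_nonneg_left k4 (show 0 ≤ (1 - q ^ 2) * ϖ ^ 2 by positivity)
  linear_combination g4 + g5 + g6 + g7

end Vale.Agent.P084
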