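import Vale.Agent.P084.Alg

open Set Filter Topology

namespace Vale.Agent.P084

/-- Symmetric second difference of the norm at `v` in the direction `y`. -/
noncomputable def dd {E : Type*} [NormedAddCommGroup E] [NormedSpace ℝ E] (v y : E) (δ : ℝ) : ℝ :=
  ‖v + δ • y‖ + ‖v - δ • y‖ - 2 * ‖v‖

section
variable {E : Type*} [NormedAddCommGroup E] [NormedSpace ℝ E]

theorem dd_nonneg (v y : E) (δ : ℝ) : 0 ≤ dd v y δ := by
  have h := norm_add_le (v + δ • y) (v - δ • y)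
  have e : v + δ • y + (v - δ • y) = (2 : ℝ) • v := by module
  rw [e, norm_smul, Real.norm_two] at h
  unfold dd
  linarith

theorem dd_le (v : E) {y : E} (hy : ‖y‖ = 1) {δ : ℝ} (hδ : 0 ≤ δ) : dd v y δ ≤ 2 * δ := by
  have h1 := norm_add_le v (δ • y)
  have h2 := norm_sub_le v (δ • y)
  rw [norm_smul, hy, Real.norm_of_nonneg hδ] at h1 h2
  unfold dd
  linarith

theorem dd_neg_smul (v y : E) (δ : ℝ) {μ : ℝ} (hμ : 0 ≤ μ) :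
    dd (-(μ • v)) y (μ * δ) = μ * dd v y δ := by
  have e1 : -(μ • v) + (μ * δ) • y = -(μ • (v - δ • y)) := by module
  have e2 : -(μ • v) - (μ * δ) • y = -(μ • (v + δ • y)) := by module
  unfold dd
  rw [e1, e2, norm_neg, norm_neg, norm_neg, norm_smul, norm_smul, norm_smul,
    Real.norm_of_nonneg hμ]
  ring

theorem exists_chord {z a : E} (hz : ‖z‖ < 1) (ha : ‖a‖ = 1) :
    ∃ μ : ℝ, 0 < μ ∧ ‖z - μ • (a - z)‖ = 1 := by
  have h0 : 0 < 1 - ‖z‖ := by linarith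
  have hM : (0 : ℝ) ≤ 2 / (1 - ‖z‖) := by positivity
  have hc : ContinuousOn (fun μ : ℝ => ‖z - μ • (a - z)‖) (Icc 0 (2 / (1 - ‖z‖))) := by fun_prop
  have h1 : 1 ≤ ‖z - (2 / (1 - ‖z‖)) • (a - z)‖ := by
    have h2 := norm_sub_norm_le a z
    have h3 := norm_sub_norm_le ((2 / (1 - ‖z‖)) • (a - z)) z
    rw [norm_smul, Real.norm_of_nonneg hM, norm_sub_rev (_ • _) z] at h3
    have h4 : 2 / (1 - ‖z‖) * (1 - ‖z‖) ≤ 2 / (1 - ‖z‖) * ‖a - z‖ :=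
      mul_le_mul_of_nonneg_left (by linarith) hM
    rw [div_mul_cancel₀ _ h0.ne'] at h4
    linarith
  obtain ⟨μ, hμ, h⟩ := intermediate_value_Icc hM hc (show (1 : ℝ) ∈ Icc _ _ from
    ⟨by simpa using hz.le, h1⟩)
  refine ⟨μ, hμ.1.lt_of_ne ?_, h⟩
  rintro rfl
  simp at h
  linarith

end

/-- Reflecting a point of the sphere through an interior point `w` of the ball of `Y`. -/
theorem reflect {S X Y : Type*} [NormedAddCommGroup X] [NormedAddCommGroup Y] [NormedSpace ℝ Y]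
    {i : S → X} {j : S → Y} (hj : ∀ p, ‖j p‖ = 1) (hij : ∀ p q, ‖i p - i q‖ = ‖j p - j q‖)
    (hj' : ∀ x, ‖x‖ = 1 → ∃ p, j p = x) (z : X) {w : Y} (hw : ‖w‖ < 1) (a : S) :
    ∃ (b : S) (μ : ℝ), 0 < μ ∧ j b - w = -(μ • (j a - w)) ∧
      ‖j a - w‖ - ‖i a - z‖ ≤ ‖i b - z‖ - ‖j b - w‖ := by
  obtain ⟨μ, hμ, h⟩ := exists_chord hw (hj a)
  obtain ⟨b, hb⟩ := hj' _ h
  have e : j b - w = -(μ • (j a - w)) := by rw [hb]; abel
  refine ⟨b, μ, hμ, e, ?_⟩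
  have e2 : j a - j b = (1 + μ) • (j a - w) := by rw [hb]; module
  have h1 := hij a b
  rw [e2, norm_smul, Real.norm_of_nonneg (by positivity)] at h1
  have h2 := norm_sub_le (i a - z) (i b - z)
  rw [sub_sub_sub_cancel_right] at h2
  rw [e, norm_neg, norm_smul, Real.norm_of_nonneg hμ.le]
  linarith

theorem step_alg {H γ η c μ θ₁ θ₂ Q₁ Q₂ m₁ m₂ du dv du' g g' R : ℝ} (hH : 0 < H) (hμ : 0 < μ)
    (hθ : θ₂ ^ 2 = μ * θ₁ ^ 2) (hg : H - η ≤ g) (hg' : H - η ≤ g')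
    (ha : dv - du + 2 * g ≤ 2 * H + θ₁ ^ 2 * Q₁ / H + 2 * (θ₁ * m₁) ^ 4 / H ^ 3)
    (hb : du' - μ * dv + 2 * g' ≤ 2 * H + θ₂ ^ 2 * Q₂ / H + 2 * (θ₂ * m₂) ^ 4 / H ^ 3)
    (hu : du ≤ c * θ₁ ^ 2) (hQ : Q₁ + Q₂ ≤ -γ) (h1 : θ₁ ^ 2 * m₁ ^ 4 ≤ R)
    (h2 : θ₂ ^ 2 * m₂ ^ 4 ≤ R) (hR : 4 * R / H ^ 3 ≤ γ / (4 * H))
    (hη : 2 * η * (1 + μ) ≤ γ / (4 * H) * θ₂ ^ 2) :
    du' ≤ (c - γ / (2 * H)) * θ₂ ^ 2 := by
  have k1 := mul_le_mul_of_nonneg_left ha hμ.le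
  have k2 := mul_le_mul_of_nonneg_left hu hμ.le
  have k3 := mul_le_mul_of_nonneg_left hg hμ.le
  have k4 := mul_le_mul_of_nonneg_left hQ (show 0 ≤ θ₂ ^ 2 / H by positivity)
  have k5 := mul_le_mul_of_nonneg_left h1 (show 0 ≤ 2 * θ₂ ^ 2 / H ^ 3 by positivity)
  have k6 := mul_le_mul_of_nonneg_left h2 (show 0 ≤ 2 * θ₂ ^ 2 / H ^ 3 by positivity)
  have k7 := mul_le_mul_of_nonneg_left hR (sq_nonneg θ₂)
  linear_combination hb + k1 + k2 + 2 * k3 + 2 * hg' + k4 + k5 + k6 + k7 + hη +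
    (-c - Q₁ / H - 2 * θ₁ ^ 2 * m₁ ^ 4 / H ^ 3) * hθ

end Vale.Agent.P084
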