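import Vale.Agent.P084.Chord

open Set Filter Topology

namespace Vale.Agent.P084

variable {S X Y : Type*} [NormedAddCommGroup X] [NormedSpace ℝ X] [NormedAddCommGroup Y]
  [NormedSpace ℝ Y] {i : S → X} {j : S → Y}

theorem test_bound {y : S} {t₀ t₀' K H θ m n : ℝ} (hH : 0 < H)
    (hE : H ^ 2 = (t₀ - t₀') ^ 2 + K * ((1 - t₀) + (1 - t₀')))
    (hP : |(t₀ - t₀' - K / 2) / H| < 1) (hQ : |(t₀ - t₀' + K / 2) / H| < 1)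
    (hb : ∀ p, ∀ t ∈ Icc (0 : ℝ) 1, ∀ t' ∈ Icc (0 : ℝ) 1,
      (‖j p - t' • j y‖ - ‖i p - t • i y‖) ^ 2 ≤ (t - t') ^ 2 + K * (2 - t - t'))
    (hθ : 0 ≤ θ) (hm : 0 ≤ m) (hn : 0 ≤ n) (h1 : θ * (m + n) ≤ t₀) (h2 : θ * (m + n) ≤ 1 - t₀)
    (h3 : θ * (m + n) ≤ t₀') (h4 : θ * (m + n) ≤ 1 - t₀') (h5 : θ * (m + n) ≤ H / 2) (p : S) :
    |dd (j p - t₀' • j y) (j y) (θ * n) - dd (i p - t₀ • i y) (i y) (θ * m) +
        2 * (‖j p - t₀' • j y‖ - ‖i p - t₀ • i y‖)| ≤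
      2 * H + θ ^ 2 * ((m - n) ^ 2 - ((t₀ - t₀' - K / 2) / H * m -
        (t₀ - t₀' + K / 2) / H * n) ^ 2) / H + 2 * (θ * (m + n)) ^ 4 / H ^ 3 := by
  have hδ : 0 ≤ θ * m := by positivity
  have hδ' : 0 ≤ θ * n := by positivity
  have h6 : θ * (m + n) = θ * m + θ * n := by ring
  have b1 := hb p (t₀ + θ * m) ⟨by linarith, by linarith⟩ (t₀' + θ * n) ⟨by linarith, by linarith⟩
  have b2 := hb p (t₀ - θ * m) ⟨by linarith, by linarith⟩ (t₀' - θ * n) ⟨by linarith, by linarith⟩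
  have e1 : j p - (t₀' + θ * n) • j y = j p - t₀' • j y - (θ * n) • j y := by module
  have e2 : i p - (t₀ + θ * m) • i y = i p - t₀ • i y - (θ * m) • i y := by module
  have e3 : j p - (t₀' - θ * n) • j y = j p - t₀' • j y + (θ * n) • j y := by module
  have e4 : i p - (t₀ - θ * m) • i y = i p - t₀ • i y + (θ * m) • i y := by module
  rw [e1, e2] at b1
  rw [e3, e4] at b2
  unfold dd
  generalize ‖j p - t₀' • j y - (θ * n) • j y‖ = a₁ at *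
  generalize ‖i p - t₀ • i y - (θ * m) • i y‖ = a₂ at *
  generalize ‖j p - t₀' • j y + (θ * n) • j y‖ = a₃ at *
  generalize ‖i p - t₀ • i y + (θ * m) • i y‖ = a₄ at *
  obtain ⟨l, hl⟩ : ∃ l, l = θ * ((t₀ - t₀' - K / 2) / H * m - (t₀ - t₀' + K / 2) / H * n) :=
    ⟨_, rfl⟩
  have hl2 : 2 * H * l = 2 * (t₀ - t₀') * (θ * m - θ * n) - K * (θ * m + θ * n) := by
    rw [hl]; field_simp; ring
  have c1 : (a₁ - a₂) ^ 2 ≤ H ^ 2 + (θ * m - θ * n) ^ 2 + 2 * H * l := by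
    rw [hl2, hE]; linarith
  have c2 : (a₃ - a₄) ^ 2 ≤ H ^ 2 + (θ * m - θ * n) ^ 2 - 2 * H * l := by
    rw [hl2, hE]; linarith
  have c3 : |θ * m - θ * n| ≤ θ * (m + n) := abs_le.2 ⟨by linarith, by linarith⟩
  have c4 : |l| ≤ θ * (m + n) := by
    rw [hl, abs_mul, abs_of_nonneg hθ]
    refine mul_le_mul_of_nonneg_left ((abs_sub _ _).trans ?_) hθ
    rw [abs_mul, abs_mul, abs_of_nonneg hm, abs_of_nonneg hn]
    exact add_le_add (mul_le_of_le_one_left hm hP.le) (mul_le_of_le_one_left hn hQ.le)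
  have d1 := sum_bound hH c1 c2 c3 c4 h5
  have d2 := sum_bound (D₁ := -(a₁ - a₂)) (D₂ := -(a₃ - a₄)) hH (by rwa [neg_sq]) (by rwa [neg_sq])
    c3 c4 h5
  have e : θ ^ 2 * ((m - n) ^ 2 - ((t₀ - t₀' - K / 2) / H * m -
        (t₀ - t₀' + K / 2) / H * n) ^ 2) = (θ * m - θ * n) ^ 2 - l ^ 2 := by rw [hl]; ring
  rw [e]
  exact abs_le.2 ⟨by linarith, by linarith⟩

theorem norm_sub_bounds {E : Type*} [NormedAddCommGroup E] [NormedSpace ℝ E] {a y : E} {t : ℝ}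
    (ha : ‖a‖ = 1) (hy : ‖y‖ = 1) (ht : 0 ≤ t) : 1 - t ≤ ‖a - t • y‖ ∧ ‖a - t • y‖ ≤ 1 + t := by
  have h1 := norm_sub_norm_le a (t • y)
  have h2 := norm_sub_le a (t • y)
  rw [norm_smul, hy, ha, Real.norm_of_nonneg ht, mul_one] at h1 h2
  exact ⟨h1, h2⟩

theorem exists_root {s : ℝ} (h0 : 0 < s) (h2 : s ≤ 2) : ∃ α : ℝ, 0 < α ∧ α ≤ 2 ∧ α ^ 2 = s :=
  ⟨√s, Real.sqrt_pos.2 h0, Real.sqrt_le_iff.2 ⟨by norm_num, by linarith⟩, Real.sq_sqrt h0.le⟩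

theorem num_facts {x x' α A β B μ r r₀ r₁ ϖ : ℝ} (hx : 0 < x) (hx1 : x ≤ 1) (hx' : 0 < x')
    (hx1' : x' ≤ 1) (hα : 0 < α) (hA : 0 < A) (hβ : 0 < β) (hB : 0 < B) (hα2 : α ≤ 2)
    (hA2 : A ≤ 2) (hβ2 : β ≤ 2) (hB2 : B ≤ 2) (h1 : x ≤ α ^ 2) (h2 : x' ≤ B ^ 2)
    (h3 : α ^ 2 ≤ A ^ 2) (h4 : B ^ 2 ≤ β ^ 2) (h5 : B ^ 2 ≤ 2) (hμ : 0 < μ)
    (hBA : B ^ 2 = μ * A ^ 2) (hr₁ : 0 < r₁) (q1 : r₁ ≤ r) (q2 : r ≤ r₀) (hϖ : 0 < ϖ) :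
    ∃ r', r' ≤ r ∧ r₁ * (x * x' / 4) ≤ r' ∧ α + ϖ * A ≤ 2 + 2 * ϖ ∧ β + ϖ * B ≤ 2 + 2 * ϖ ∧
      r * α ≤ 2 * r₀ ∧ r' * β ≤ 2 * r₀ ∧ (r' * β) ^ 2 = μ * (r * α) ^ 2 ∧
      r' * β * (ϖ * B) = μ * (r * α * (ϖ * A)) ∧ μ ≤ 2 / x := by
  have hr : 0 < r := by linarith
  have hαA : α ≤ A := le_of_sq_le_sq h3 hA.le
  have hBβ : B ≤ β := le_of_sq_le_sq h4 hβ.le
  have hxα : x ≤ α := le_of_sq_le_sq (by nlinarith) hα.le
  have hxB : x' ≤ B := le_of_sq_le_sq (by nlinarith) hB.le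
  have hr'1 : r * (α * B / (A * β)) ≤ r := by
    refine mul_le_of_le_one_right hr.le ?_
    rw [div_le_one (by positivity)]
    exact mul_le_mul hαA hBβ hB.le hA.le
  refine ⟨r * (α * B / (A * β)), hr'1, ?_, by nlinarith, by nlinarith, by nlinarith, ?_, ?_, ?_, ?_⟩
  · refine mul_le_mul q1 ?_ (by positivity) hr.le
    refine div_le_div₀ (by positivity) (mul_le_mul hxα hxB hx'.le hα.le) (by positivity) ?_
    linarith [mul_le_mul hA2 hβ2 hβ.le (by norm_num : (0 : ℝ) ≤ 2)]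
  · linarith [mul_le_mul (hr'1.trans q2) hβ2 hβ.le (by linarith)]
  · field_simp; linarith
  · field_simp; linarith
  · rw [le_div_iff₀ hx]
    have : μ * x ≤ μ * A ^ 2 := mul_le_mul_of_nonneg_left (by linarith) hμ.le
    linarith

theorem step_geo (hi : ∀ p, ‖i p‖ = 1) (hj : ∀ p, ‖j p‖ = 1)
    (hij : ∀ p q, ‖i p - i q‖ = ‖j p - j q‖) (hi' : ∀ x, ‖x‖ = 1 → ∃ p, i p = x)
    (hj' : ∀ x, ‖x‖ = 1 → ∃ p, j p = x) {y : S} {t₀ t₀' K H ϖ γ η₀ ε₀ r₀ r₁ r c η : ℝ}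
    (ht : t₀ ∈ Ioo (0 : ℝ) 1) (ht' : t₀' ∈ Ioo (0 : ℝ) 1) (hH : 0 < H)
    (hE : H ^ 2 = (t₀ - t₀') ^ 2 + K * ((1 - t₀) + (1 - t₀')))
    (hP : |(t₀ - t₀' - K / 2) / H| < 1) (hQ : |(t₀ - t₀' + K / 2) / H| < 1)
    (hb : ∀ p, ∀ t ∈ Icc (0 : ℝ) 1, ∀ t' ∈ Icc (0 : ℝ) 1,
      (‖j p - t' • j y‖ - ‖i p - t • i y‖) ^ 2 ≤ (t - t') ^ 2 + K * (2 - t - t'))
    (hϖ : 0 < ϖ) (hγ : 0 < γ) (hη₀H : η₀ ≤ H)
    (hgap : ∀ α A β B : ℝ, 0 ≤ α → 0 ≤ A → 0 ≤ β →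
      0 ≤ B → 1 - t₀ ≤ α ^ 2 → 1 - t₀' ≤ B ^ 2 → H - η₀ ≤ A ^ 2 - α ^ 2 → A ^ 2 - α ^ 2 ≤ H →
      H - η₀ ≤ β ^ 2 - B ^ 2 → β ^ 2 - B ^ 2 ≤ H →
      ((α - ϖ * A) ^ 2 - ((t₀ - t₀' - K / 2) / H * α - (t₀ - t₀' + K / 2) / H * (ϖ * A)) ^ 2) +
        ((β - ϖ * B) ^ 2 - ((t₀ - t₀' - K / 2) / H * β -
          (t₀ - t₀' + K / 2) / H * (ϖ * B)) ^ 2) ≤ -γ)
    (k1 : ε₀ ≤ t₀) (k2 : ε₀ ≤ 1 - t₀) (k3 : ε₀ ≤ t₀') (k4 : ε₀ ≤ 1 - t₀') (k5 : ε₀ ≤ H / 2)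
    (hr₁ : 2 * r₀ * (2 + 2 * ϖ) ≤ ε₀)
    (hr₂ : 4 * ((2 * r₀) ^ 2 * (2 + 2 * ϖ) ^ 4) / H ^ 3 ≤ γ / (4 * H)) (hr₁0 : 0 < r₁)
    (hη : 0 < η) (hη2 : η ≤ η₀) (hη3 : 2 * η * (1 + 2 / (1 - t₀)) ≤
      γ / (4 * H) * ((r₁ * ((1 - t₀) * (1 - t₀') / 4)) ^ 2 * (1 - t₀)))
    {a : S} (q1 : r₁ ≤ r) (q2 : r ≤ r₀) (q3 : H - η ≤ ‖j a - t₀' • j y‖ - ‖i a - t₀ • i y‖)
    (q4 : dd (i a - t₀ • i y) (i y) (‖i a - t₀ • i y‖ * r) ≤ c * ‖i a - t₀ • i y‖ * r ^ 2) :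
    ∃ a r, r₁ * ((1 - t₀) * (1 - t₀') / 4) ≤ r ∧ r ≤ r₀ ∧
      H - η ≤ ‖j a - t₀' • j y‖ - ‖i a - t₀ • i y‖ ∧
      dd (i a - t₀ • i y) (i y) (‖i a - t₀ • i y‖ * r) ≤
        (c - γ / (2 * H)) * ‖i a - t₀ • i y‖ * r ^ 2 := by
  have hx : 0 < 1 - t₀ := sub_pos.2 ht.2
  have hx' : 0 < 1 - t₀' := sub_pos.2 ht'.2
  have hz : ‖t₀ • i y‖ < 1 := by
    rw [norm_smul, hi, mul_one, Real.norm_of_nonneg ht.1.le]; exact ht.2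
  have hw : ‖t₀' • j y‖ < 1 := by
    rw [norm_smul, hj, mul_one, Real.norm_of_nonneg ht'.1.le]; exact ht'.2
  have hgH : ∀ p, |‖j p - t₀' • j y‖ - ‖i p - t₀ • i y‖| ≤ H := by
    intro p
    apply abs_le_of_sq_le_sq _ hH.le
    have := hb p t₀ ⟨ht.1.le, ht.2.le⟩ t₀' ⟨ht'.1.le, ht'.2.le⟩
    linarith
  obtain ⟨b, μ, hμ, eb, gb⟩ := reflect hj hij hj' (t₀ • i y) hw a
  obtain ⟨a', μ', hμ', ea, ga⟩ := reflect hi (fun p q => (hij p q).symm) hi' (t₀' • j y) hz b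
  have sa := norm_sub_bounds (hi a) (hi y) ht.1.le
  have sb := norm_sub_bounds (hi b) (hi y) ht.1.le
  have Sa := norm_sub_bounds (hj a) (hj y) ht'.1.le
  have Sb := norm_sub_bounds (hj b) (hj y) ht'.1.le
  have ua := (abs_le.1 (hgH a)).2
  have ub := (abs_le.1 (hgH b)).1
  have nb : ‖j b - t₀' • j y‖ = μ * ‖j a - t₀' • j y‖ := by
    rw [eb, norm_neg, norm_smul, Real.norm_of_nonneg hμ.le]
  have na : ‖i a' - t₀ • i y‖ = μ' * ‖i b - t₀ • i y‖ := by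
    rw [ea, norm_neg, norm_smul, Real.norm_of_nonneg hμ'.le]
  have T1 := fun θ m n h1 h2 h3 (h4 : θ * (m + n) ≤ ε₀) => (abs_le.1 (test_bound hH hE hP hQ hb
    h1 h2 h3 (h4.trans k1) (h4.trans k2) (h4.trans k3) (h4.trans k4) (h4.trans k5) a)).2
  have T2 := fun θ m n h1 h2 h3 (h4 : θ * (m + n) ≤ ε₀) => (abs_le.1 (test_bound hH hE hP hQ hb
    h1 h2 h3 (h4.trans k1) (h4.trans k2) (h4.trans k3) (h4.trans k4) (h4.trans k5) b)).1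
  have e2 : ∀ δ, dd (j b - t₀' • j y) (j y) (μ * δ) = μ * dd (j a - t₀' • j y) (j y) δ :=
    fun δ => by rw [eb, dd_neg_smul _ _ _ hμ.le]
  have e3 : ∀ δ, dd (i a' - t₀ • i y) (i y) (μ' * δ) = μ' * dd (i b - t₀ • i y) (i y) δ :=
    fun δ => by rw [ea, dd_neg_smul _ _ _ hμ'.le]
  suffices h : ∃ r', r₁ * ((1 - t₀) * (1 - t₀') / 4) ≤ r' ∧ r' ≤ r₀ ∧
      dd (i b - t₀ • i y) (i y) (‖i b - t₀ • i y‖ * r') ≤
        (c - γ / (2 * H)) * ‖i b - t₀ • i y‖ * r' ^ 2 by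
    obtain ⟨r', h1, h2, h3⟩ := h
    refine ⟨a', r', h1, h2, by linarith, ?_⟩
    rw [na, mul_assoc μ', e3]
    have := mul_le_mul_of_nonneg_left h3 hμ'.le
    linarith
  have g1 : H - η ≤ ‖i b - t₀ • i y‖ - ‖j b - t₀' • j y‖ := by linarith
  clear hb hgH eb ea e3 na ga gb hi hj hij hi' hj' hz hw hE hP hQ hμ' k1 k2 k3 k4 k5
  generalize dd (i a - t₀ • i y) (i y) = fa at *
  generalize dd (i b - t₀ • i y) (i y) = fb at *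
  generalize dd (j a - t₀' • j y) (j y) = Fa at *
  generalize dd (j b - t₀' • j y) (j y) = Fb at *
  generalize ‖i a - t₀ • i y‖ = s at *
  generalize ‖i b - t₀ • i y‖ = s' at *
  generalize ‖j a - t₀' • j y‖ = σ at *
  generalize ‖j b - t₀' • j y‖ = σ' at *
  generalize (t₀ - t₀' - K / 2) / H = P at *
  generalize (t₀ - t₀' + K / 2) / H = Q at *
  obtain ⟨α, hα, hα2, rfl⟩ := exists_root (s := s) (by linarith) (by linarith [ht.2])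
  obtain ⟨β, hβ, hβ2, rfl⟩ := exists_root (s := s') (by linarith) (by linarith [ht.2])
  obtain ⟨A, hA, hA2, rfl⟩ := exists_root (s := σ) (by linarith) (by linarith [ht'.2])
  obtain ⟨B, hB, hB2, eB⟩ := exists_root (s := σ') (by linarith) (by linarith [ht'.2])
  subst eB
  obtain ⟨r', hr'1, hr'2, hm₁, hm₂, hθ₁, hθ₂, hθ, e1, hμ2⟩ := num_facts hx (by linarith [ht.1])
    hx' (by linarith [ht'.1]) hα hA hβ hB hα2 hA2 hβ2 hB2 sa.1 Sb.1 (by linarith) (by linarith)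
    (by linarith [ht'.2]) hμ nb hr₁0 q1 q2 hϖ
  have hr : 0 < r := hr₁0.trans_le q1
  have hr₀ : 0 < r₀ := hr.trans_le q2
  have hr'0 : 0 < r' := lt_of_lt_of_le (by positivity) hr'2
  have U1 := T1 (r * α) α (ϖ * A) (by positivity) hα.le (by positivity)
    ((mul_le_mul hθ₁ hm₁ (by positivity) (by positivity)).trans hr₁)
  have U2 := T2 (r' * β) β (ϖ * B) (by positivity) hβ.le (by positivity)
    ((mul_le_mul hθ₂ hm₂ (by positivity) (by positivity)).trans hr₁)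
  clear T1 T2
  have q5 : fa (r * α * α) ≤ c * (r * α) ^ 2 := by
    rw [show α ^ 2 * r = r * α * α by ring] at q4
    linarith
  have G := hgap α A β B hα.le hA.le hβ.le hB.le sa.1 Sb.1 (by linarith)
    (by linarith) (by linarith) (by linarith)
  clear hgap
  have hη4 : 2 * η * (1 + μ) ≤ γ / (4 * H) * (r' * β) ^ 2 := by
    refine le_trans (mul_le_mul_of_nonneg_left (by linarith) (by positivity)) (hη3.trans ?_)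
    refine mul_le_mul_of_nonneg_left ?_ (by positivity)
    rw [mul_pow r']
    exact mul_le_mul (pow_le_pow_left₀ (by positivity) hr'2 2) sb.1 hx.le (by positivity)
  rw [e1, e2] at U2
  have fin := step_alg (du' := fb (r' * β * β)) (m₂ := β + ϖ * B) hH hμ hθ q3 g1
    U1 (by linarith) q5 G
    (mul_le_mul (pow_le_pow_left₀ (by positivity) hθ₁ 2) (pow_le_pow_left₀ (by positivity) hm₁ 4)
      (by positivity) (by positivity))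
    (mul_le_mul (pow_le_pow_left₀ (by positivity) hθ₂ 2) (pow_le_pow_left₀ (by positivity) hm₂ 4)
      (by positivity) (by positivity)) hr₂ hη4
  refine ⟨r', hr'2, hr'1.trans q2, ?_⟩
  rw [show β ^ 2 * r' = r' * β * β by ring]
  linarith

theorem no_extremal (hi : ∀ p, ‖i p‖ = 1) (hj : ∀ p, ‖j p‖ = 1)
    (hij : ∀ p q, ‖i p - i q‖ = ‖j p - j q‖) (hi' : ∀ x, ‖x‖ = 1 → ∃ p, i p = x)
    (hj' : ∀ x, ‖x‖ = 1 → ∃ p, j p = x) {y : S} {t₀ t₀' K H : ℝ} (ht : t₀ ∈ Ioo (0 : ℝ) 1)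
    (ht' : t₀' ∈ Ioo (0 : ℝ) 1) (hK : 0 < K) (hH : 0 < H)
    (hE : H ^ 2 = (t₀ - t₀') ^ 2 + K * ((1 - t₀) + (1 - t₀'))) (hle : H ≤ (1 - t₀) + (1 - t₀'))
    (hb : ∀ p, ∀ t ∈ Icc (0 : ℝ) 1, ∀ t' ∈ Icc (0 : ℝ) 1,
      (‖j p - t' • j y‖ - ‖i p - t • i y‖) ^ 2 ≤ (t - t') ^ 2 + K * (2 - t - t'))
    (happ : ∀ η > 0, ∃ p, H - η ≤ |‖j p - t₀' • j y‖ - ‖i p - t₀ • i y‖|) : False := by
  have hx : 0 < 1 - t₀ := by linarith [ht.2]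
  have hx' : 0 < 1 - t₀' := by linarith [ht'.2]
  obtain ⟨hP, hQ⟩ := abs_coef_lt hx hx' hH hK hE hle
  obtain ⟨ϖ, γ, η₀, hϖ, hγ, hη₀, hη₀H, hgap⟩ := exists_gap hx hx' hH hK (by ring) hE hle
  have hz : ‖t₀ • i y‖ < 1 := by
    rw [norm_smul, hi, mul_one, Real.norm_of_nonneg ht.1.le]; exact ht.2
  -- the initial scale
  obtain ⟨ε₀, hε₀, k1, k2, k3, k4, k5⟩ : ∃ ε₀ > 0, ε₀ ≤ t₀ ∧ ε₀ ≤ 1 - t₀ ∧ ε₀ ≤ t₀' ∧
      ε₀ ≤ 1 - t₀' ∧ ε₀ ≤ H / 2 := by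
    refine ⟨min (min t₀ (1 - t₀)) (min (min t₀' (1 - t₀')) (H / 2)), ?_, ?_, ?_, ?_, ?_, ?_⟩
    · have := ht.1
      have := ht'.1
      positivity
    all_goals simp
  obtain ⟨r₀, hr₀, hr₁, hr₂⟩ : ∃ r₀ > 0, 2 * r₀ * (2 + 2 * ϖ) ≤ ε₀ ∧
      4 * ((2 * r₀) ^ 2 * (2 + 2 * ϖ) ^ 4) / H ^ 3 ≤ γ / (4 * H) := by
    have c1 : Continuous fun r : ℝ => 2 * r * (2 + 2 * ϖ) := by fun_prop
    have c2 : Continuous fun r : ℝ => 4 * ((2 * r) ^ 2 * (2 + 2 * ϖ) ^ 4) / H ^ 3 := by fun_prop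
    have e1 := (c1.tendsto 0).eventually (ge_mem_nhds (a := ε₀) (by simpa using hε₀))
    have e2 := (c2.tendsto 0).eventually (ge_mem_nhds (a := γ / (4 * H))
      (by simp only [mul_zero, ne_eq, OfNat.ofNat_ne_zero, not_false_eq_true, zero_pow, zero_mul,
        zero_div]; positivity))
    obtain ⟨r, hr, h⟩ := (eventually_mem_nhdsWithin.and
      ((e1.and e2).filter_mono (nhdsWithin_le_nhds (s := Ioi (0 : ℝ))))).exists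
    exact ⟨r, hr, h⟩
  have all : ∀ k : ℕ, ∃ r₁ > 0, ∀ η > 0, ∃ a r, r₁ ≤ r ∧ r ≤ r₀ ∧
      H - η ≤ ‖j a - t₀' • j y‖ - ‖i a - t₀ • i y‖ ∧
      dd (i a - t₀ • i y) (i y) (‖i a - t₀ • i y‖ * r) ≤
        (2 / r₀ - k * (γ / (2 * H))) * ‖i a - t₀ • i y‖ * r ^ 2 := by
    intro k
    induction k with
    | zero =>
      refine ⟨r₀, hr₀, fun η hη => ?_⟩
      obtain ⟨a, ha⟩ : ∃ a, H - η ≤ ‖j a - t₀' • j y‖ - ‖i a - t₀ • i y‖ := by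
        obtain ⟨p, hp⟩ := happ η hη
        rcases le_abs.1 hp with h | h
        · exact ⟨p, h⟩
        · obtain ⟨a, -, -, -, ga⟩ := reflect hi (fun p q => (hij p q).symm) hi' (t₀' • j y) hz p
          exact ⟨a, by linarith⟩
      refine ⟨a, r₀, le_rfl, le_rfl, ha, (dd_le _ (hi y) (by positivity)).trans (le_of_eq ?_)⟩
      simp only [Nat.cast_zero, zero_mul, sub_zero]
      field_simp
    | succ k ih =>
      obtain ⟨r₁, h0, h⟩ := ih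
      refine ⟨r₁ * ((1 - t₀) * (1 - t₀') / 4), by positivity, fun η' hη' => ?_⟩
      obtain ⟨η, hη, hη1, hη2, hη3⟩ : ∃ η > 0, η ≤ η' ∧ η ≤ η₀ ∧ 2 * η * (1 + 2 / (1 - t₀)) ≤
          γ / (4 * H) * ((r₁ * ((1 - t₀) * (1 - t₀') / 4)) ^ 2 * (1 - t₀)) := by
        obtain ⟨κ, hκ⟩ : ∃ κ, κ = γ / (4 * H) * ((r₁ * ((1 - t₀) * (1 - t₀') / 4)) ^ 2 *
          (1 - t₀)) / (2 * (1 + 2 / (1 - t₀))) := ⟨_, rfl⟩
        have hκ0 : 0 < κ := by rw [hκ]; positivity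
        refine ⟨min (min η' η₀) κ, by positivity, by simp, by simp, ?_⟩
        have h1 : min (min η' η₀) κ ≤ κ := min_le_right _ _
        generalize min (min η' η₀) κ = e at *
        rw [hκ, le_div_iff₀ (by positivity)] at h1
        linarith
      obtain ⟨a, r, q1, q2, q3, q4⟩ := h η hη
      obtain ⟨a', r', p1, p2, p3, p4⟩ := step_geo hi hj hij hi' hj' ht ht' hH hE hP hQ hb hϖ hγ
        hη₀H hgap k1 k2 k3 k4 k5 hr₁ hr₂ h0 hη hη2 hη3 q1 q2 q3 q4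
      refine ⟨a', r', p1, p2, by linarith, ?_⟩
      rwa [show 2 / r₀ - k * (γ / (2 * H)) - γ / (2 * H) =
        2 / r₀ - ((k + 1 : ℕ) : ℝ) * (γ / (2 * H)) by push_cast; ring] at p4
  obtain ⟨k, hk⟩ := exists_lt_nsmul (show 0 < γ / (2 * H) by positivity) (2 / r₀)
  obtain ⟨r₁, h0, h⟩ := all k
  obtain ⟨a, r, q1, -, -, q4⟩ := h 1 one_pos
  have h1 := dd_nonneg (i a - t₀ • i y) (i y) (‖i a - t₀ • i y‖ * r)
  have h2 := (norm_sub_bounds (hi a) (hi y) ht.1.le).1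
  rw [nsmul_eq_mul] at hk
  have h3 : (2 / r₀ - k * (γ / (2 * H))) * (‖i a - t₀ • i y‖ * r ^ 2) < 0 :=
    mul_neg_of_neg_of_pos (by linarith) (mul_pos (by linarith) (pow_pos (by linarith) 2))
  linarith

end Vale.Agent.P084
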