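import Vale.Agent.P084.Extremal

open Set Filter Topology Function Metric

namespace Vale.Agent.P084

section
variable {S X Y : Type*} [NormedAddCommGroup X] [NormedSpace ℝ X] [NormedAddCommGroup Y]
  [NormedSpace ℝ Y] {i : S → X} {j : S → Y}

theorem abs_norm_param {E : Type*} [NormedAddCommGroup E] [NormedSpace ℝ E] (a : E) {y : E}
    (hy : ‖y‖ = 1) (t s : ℝ) : |‖a - t • y‖ - ‖a - s • y‖| ≤ |t - s| := by
  refine (abs_norm_sub_norm_le _ _).trans (le_of_eq ?_)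
  have : a - t • y - (a - s • y) = (s - t) • y := by module
  rw [this, norm_smul, hy, mul_one, Real.norm_eq_abs, abs_sub_comm]

theorem radial (hi : ∀ p, ‖i p‖ = 1) (hj : ∀ p, ‖j p‖ = 1)
    (hij : ∀ p q, ‖i p - i q‖ = ‖j p - j q‖) (hi' : ∀ x, ‖x‖ = 1 → ∃ p, i p = x)
    (hj' : ∀ x, ‖x‖ = 1 → ∃ p, j p = x) (y p₁ : S) {t₁ : ℝ} (ht₁ : t₁ ∈ Icc (0 : ℝ) 1) :
    ‖j p₁ - t₁ • j y‖ = ‖i p₁ - t₁ • i y‖ := by
  have : Nonempty S := ⟨y⟩
  obtain ⟨Δ, hΔ⟩ : ∃ Δ : S → ℝ × ℝ → ℝ,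
      Δ = fun p P => ‖j p - P.2 • j y‖ - ‖i p - P.1 • i y‖ := ⟨_, rfl⟩
  have hlip : ∀ p P Q, |Δ p P - Δ p Q| ≤ |P.1 - Q.1| + |P.2 - Q.2| := by
    intro p P Q
    have h1 := abs_le.1 (abs_norm_param (i p) (hi y) P.1 Q.1)
    have h2 := abs_le.1 (abs_norm_param (j p) (hj y) P.2 Q.2)
    rw [hΔ]
    exact abs_le.2 ⟨by linarith, by linarith⟩
  have h0 : ∀ p, Δ p (0, 0) = 0 := fun p => by simp [hΔ, hi, hj]
  have h1 : ∀ p, Δ p (1, 1) = 0 := fun p => by simp [hΔ, hij]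
  have hbdd : ∀ P, BddAbove (range fun p => |Δ p P|) := fun P =>
    ⟨|P.1 - 0| + |P.2 - 0|, by
      rintro _ ⟨p, rfl⟩
      simpa [h0] using hlip p P (0, 0)⟩
  obtain ⟨D, hD⟩ : ∃ D : ℝ × ℝ → ℝ, D = fun P => ⨆ p, |Δ p P| := ⟨_, rfl⟩
  have hle : ∀ p P, |Δ p P| ≤ D P := fun p P => by rw [hD]; exact le_ciSup (hbdd P) p
  have hD0 : ∀ P, 0 ≤ D P := fun P => (abs_nonneg _).trans (hle y P)
  have hDlip : ∀ P Q, D P ≤ D Q + (|P.1 - Q.1| + |P.2 - Q.2|) := by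
    intro P Q
    conv_lhs => rw [hD]
    refine ciSup_le fun p => ?_
    have := abs_sub_abs_le_abs_sub (Δ p P) (Δ p Q)
    linarith [hlip p P Q, hle p Q]
  have hDc : Continuous D := by
    refine (LipschitzWith.of_le_add_mul 2 fun P Q => (hDlip P Q).trans ?_).continuous
    have a1 : |P.1 - Q.1| ≤ dist P Q := by rw [← Real.dist_eq, Prod.dist_eq]; exact le_max_left _ _
    have a2 : |P.2 - Q.2| ≤ dist P Q := by rw [← Real.dist_eq, Prod.dist_eq]; exact le_max_right _ _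
    rw [NNReal.coe_ofNat]
    linarith
  have hD00 : D (0, 0) = 0 := by simp [hD, h0]
  have hD11 : D (1, 1) = 0 := by simp [hD, h1]
  have hsum : ∀ P : ℝ × ℝ, P.1 ≤ 1 → P.2 ≤ 1 → D P ≤ (1 - P.1) + (1 - P.2) := by
    intro P a1 a2
    have := hDlip P (1, 1)
    rw [hD11, abs_of_nonpos (by linarith), abs_of_nonpos (by linarith)] at this
    linarith
  by_contra hne
  have ht1 : t₁ < 1 := by
    refine ht₁.2.lt_of_ne ?_
    rintro rfl
    exact hne (by simp [hij])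
  have hpos : 0 < D (t₁, t₁) :=
    lt_of_lt_of_le (abs_pos.2 (by rw [hΔ]; exact sub_ne_zero.2 hne)) (hle p₁ _)
  obtain ⟨Ψ, hΨ⟩ : ∃ Ψ : ℝ × ℝ → ℝ,
      Ψ = fun P => (D P ^ 2 - (P.1 - P.2) ^ 2) / ((1 - P.1) + (1 - P.2)) := ⟨_, rfl⟩
  have hΨle : ∀ P : ℝ × ℝ, P.1 ≤ 1 → P.2 ≤ 1 → Ψ P ≤ (1 - P.1) + (1 - P.2) := by
    intro P a1 a2
    rw [hΨ]
    refine div_le_of_le_mul₀ (by linarith) (by linarith) ?_
    nlinarith [pow_le_pow_left₀ (hD0 P) (hsum P a1 a2) 2, sq_nonneg (P.1 - P.2)]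
  have hK₁ : 0 < Ψ (t₁, t₁) := by
    rw [hΨ]
    exact div_pos (by simpa using pow_pos hpos 2) (by simp only; linarith)
  have hC : IsCompact ((Icc (0 : ℝ) 1 ×ˢ Icc (0 : ℝ) 1) ∩
      {P : ℝ × ℝ | Ψ (t₁, t₁) ≤ (1 - P.1) + (1 - P.2)}) :=
    (isCompact_Icc.prod isCompact_Icc).inter_right (isClosed_le (by fun_prop) (by fun_prop))
  have hmem : (t₁, t₁) ∈ ((Icc (0 : ℝ) 1 ×ˢ Icc (0 : ℝ) 1) ∩
      {P : ℝ × ℝ | Ψ (t₁, t₁) ≤ (1 - P.1) + (1 - P.2)}) := ⟨⟨ht₁, ht₁⟩, hΨle _ ht₁.2 ht₁.2⟩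
  obtain ⟨P₀, ⟨⟨a1, a2⟩, a3⟩, hmax⟩ := hC.exists_isMaxOn ⟨_, hmem⟩ (f := Ψ) (by
    have : ∀ P ∈ ((Icc (0 : ℝ) 1 ×ˢ Icc (0 : ℝ) 1) ∩
        {P : ℝ × ℝ | Ψ (t₁, t₁) ≤ (1 - P.1) + (1 - P.2)}), (1 - P.1) + (1 - P.2) ≠ 0 :=
      fun P hP => (hK₁.trans_le hP.2).ne'
    generalize Ψ (t₁, t₁) = c at this
    rw [hΨ]
    exact ContinuousOn.div (by fun_prop) (by fun_prop) this)
  have hK1 : Ψ (t₁, t₁) ≤ Ψ P₀ := hmax hmem
  have hK : 0 < Ψ P₀ := hK₁.trans_le hK1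
  have hσ : 0 < (1 - P₀.1) + (1 - P₀.2) := hK₁.trans_le a3
  have hE : D P₀ ^ 2 = (P₀.1 - P₀.2) ^ 2 + Ψ P₀ * ((1 - P₀.1) + (1 - P₀.2)) := by
    rw [hΨ]
    simp only
    rw [div_mul_cancel₀ _ hσ.ne']
    ring
  have hlt : |P₀.1 - P₀.2| < D P₀ :=
    abs_lt_of_sq_lt_sq (by linarith [mul_pos hK hσ]) (hD0 _)
  have hlt' := abs_lt.1 hlt
  have b0 := hDlip P₀ (0, 0)
  rw [hD00, sub_zero, sub_zero, abs_of_nonneg a1.1, abs_of_nonneg a2.1] at b0
  have b1 := hsum P₀ a1.2 a2.2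
  refine no_extremal hi hj hij hi' hj' (y := y) (t₀ := P₀.1) (t₀' := P₀.2) (K := Ψ P₀) (H := D P₀)
    ⟨by linarith, by linarith⟩ ⟨by linarith, by linarith⟩ hK ((abs_nonneg _).trans_lt hlt) hE b1
    ?_ ?_
  · intro p t ht t' ht'
    have c1 : Δ p (t, t') ^ 2 ≤ D (t, t') ^ 2 := by
      rw [← sq_abs]; exact pow_le_pow_left₀ (abs_nonneg _) (hle p _) 2
    have c2 : Ψ (t, t') ≤ Ψ P₀ := by
      by_cases h : Ψ (t₁, t₁) ≤ (1 - t) + (1 - t')
      · exact hmax ⟨⟨ht, ht'⟩, h⟩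
      · linarith [hΨle (t, t') ht.2 ht'.2, not_le.1 h]
    have c3 : D (t, t') ^ 2 ≤ (t - t') ^ 2 + Ψ P₀ * (2 - t - t') := by
      rcases (show 0 ≤ (1 - t) + (1 - t') by linarith [ht.2, ht'.2]).eq_or_lt with h | h
      · have d1 := hsum (t, t') ht.2 ht'.2
        have d2 : D (t, t') = 0 := le_antisymm (by simp only at d1; linarith) (hD0 _)
        rw [d2, show 2 - t - t' = 0 by linarith]
        simpa using sq_nonneg (t - t')
      · rw [hΨ] at c2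
        simp only at c2
        rw [div_le_iff₀ h] at c2
        rw [hΨ]
        simp only
        linarith
    rw [hΔ] at c1
    exact c1.trans c3
  · intro η hη
    obtain ⟨p, hp⟩ := exists_lt_of_lt_ciSup (f := fun p => |Δ p P₀|) (b := D P₀ - η)
      (by conv_rhs => rw [show (⨆ p, |Δ p P₀|) = D P₀ by rw [hD]]
          linarith)
    rw [hΔ] at hp
    exact ⟨p, hp.le⟩

end

theorem exists_eq_smul_unit {X : Type*} [NormedAddCommGroup X] [NormedSpace ℝ X] {x : X}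
    (hx : x ≠ 0) : ∃ a : sphere (0 : X) 1, x = ‖x‖ • (a : X) := by
  have h : ‖x‖ ≠ 0 := norm_ne_zero_iff.2 hx
  exact ⟨⟨‖x‖⁻¹ • x, by simp [norm_smul, h]⟩, by simp [smul_smul, h]⟩

theorem tingley {X Y : Type*} [NormedAddCommGroup X] [NormedSpace ℝ X]
    [NormedAddCommGroup Y] [NormedSpace ℝ Y] (f : sphere (0 : X) 1 → sphere (0 : Y) 1)
    (hf : Isometry f) (hs : Surjective f) :
    ∃ T : X ≃ₗᵢ[ℝ] Y, ∀ x : sphere (0 : X) 1, T x = f x := by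
  classical
  have hrad : ∀ (a b : sphere (0 : X) 1) {t : ℝ}, t ∈ Icc (0 : ℝ) 1 →
      ‖(f a : Y) - t • (f b : Y)‖ = ‖(a : X) - t • (b : X)‖ := by
    intro a b t ht
    refine radial (i := fun p : sphere (0 : X) 1 => (p : X)) (j := fun p => (f p : Y))
      (fun p => by simp) (fun p => by simp) (fun p q => ?_) (fun x hx => ⟨⟨x, by simpa⟩, rfl⟩)
      (fun x hx => ?_) b a ht
    · have := hf.dist_eq p q
      rw [Subtype.dist_eq, Subtype.dist_eq, dist_eq_norm, dist_eq_norm] at this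
      exact this.symm
    · obtain ⟨p, hp⟩ := hs ⟨x, by simpa⟩
      exact ⟨p, by simp [hp]⟩
  have hrad2 : ∀ (a b : sphere (0 : X) 1) {s t : ℝ}, 0 < s → 0 ≤ t → t ≤ s →
      ‖s • (f a : Y) - t • (f b : Y)‖ = ‖s • (a : X) - t • (b : X)‖ := by
    intro a b s t h0 h1 h2
    have e1 : s • (f a : Y) - t • (f b : Y) = s • ((f a : Y) - (t / s) • (f b : Y)) := by
      rw [smul_sub, smul_smul, mul_div_cancel₀ _ h0.ne']
    have e2 : s • (a : X) - t • (b : X) = s • ((a : X) - (t / s) • (b : X)) := by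
      rw [smul_sub, smul_smul, mul_div_cancel₀ _ h0.ne']
    rw [e1, e2, norm_smul, norm_smul, hrad a b ⟨by positivity, (div_le_one h0).2 h2⟩]
  let F : X → Y := fun x =>
    if h : x = 0 then 0 else ‖x‖ • (f (exists_eq_smul_unit h).choose : Y)
  have hF0 : F 0 = 0 := by simp [F]
  have hFh : ∀ (t : ℝ) (a : sphere (0 : X) 1), 0 ≤ t → F (t • (a : X)) = t • (f a : Y) := by
    intro t a ht
    rcases ht.eq_or_lt with rfl | ht
    · simp [hF0]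
    have hn : ‖t • (a : X)‖ = t := by simp [norm_smul, abs_of_pos ht]
    have h : t • (a : X) ≠ 0 := by
      rw [← norm_ne_zero_iff, hn]; exact ht.ne'
    have h1 := (exists_eq_smul_unit h).choose_spec
    have h2 : (exists_eq_smul_unit h).choose = a := by
      apply Subtype.ext
      generalize (exists_eq_smul_unit h).choose = b at h1
      rw [hn] at h1
      exact (smul_right_injective X ht.ne' h1).symm
    simp only [F, dif_neg h]
    rw [h2, hn]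
  have hnorm : ∀ x, ‖F x‖ = ‖x‖ := by
    intro x
    rcases eq_or_ne x 0 with rfl | hx
    · simp [hF0]
    obtain ⟨a, ha⟩ := exists_eq_smul_unit hx
    conv_lhs => rw [ha, hFh _ _ (norm_nonneg _)]
    simp [norm_smul]
  have hiso : Isometry F := by
    refine Isometry.of_dist_eq fun x y => ?_
    rcases eq_or_ne x 0 with rfl | hx
    · simp only [hF0, dist_zero_left, hnorm]
    rcases eq_or_ne y 0 with rfl | hy
    · simp only [hF0, dist_zero_right, hnorm]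
    obtain ⟨a, ha⟩ := exists_eq_smul_unit hx
    obtain ⟨b, hb⟩ := exists_eq_smul_unit hy
    have hFx : F x = ‖x‖ • (f a : Y) := by conv_lhs => rw [ha, hFh _ _ (norm_nonneg _)]
    have hFy : F y = ‖y‖ • (f b : Y) := by conv_lhs => rw [hb, hFh _ _ (norm_nonneg _)]
    rcases le_total ‖y‖ ‖x‖ with h | h
    · rw [dist_eq_norm, dist_eq_norm, hFx, hFy, hrad2 a b (norm_pos_iff.2 hx) (norm_nonneg _) h,
        ← ha, ← hb]
    · rw [dist_comm, dist_comm x, dist_eq_norm, dist_eq_norm, hFx, hFy,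
        hrad2 b a (norm_pos_iff.2 hy) (norm_nonneg _) h, ← ha, ← hb]
  have hsurj : Surjective F := by
    intro w
    rcases eq_or_ne w 0 with rfl | hw
    · exact ⟨0, hF0⟩
    obtain ⟨b, hb⟩ := exists_eq_smul_unit hw
    obtain ⟨a, rfl⟩ := hs b
    exact ⟨‖w‖ • (a : X), by rw [hFh _ _ (norm_nonneg _), ← hb]⟩
  let e : X ≃ᵢ Y := ⟨Equiv.ofBijective F ⟨hiso.injective, hsurj⟩, hiso⟩
  refine ⟨e.toRealLinearIsometryEquivOfMapZero hF0, fun x => ?_⟩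
  have := hFh 1 x zero_le_one
  rw [one_smul, one_smul] at this
  exact this

end Vale.Agent.P084
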