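import Vale.Agent.P084.Hull

open Set Matrix
open scoped MatrixOrder RealInnerProductSpace

namespace Vale.Agent.P084

/-- Scalar inequality behind the first-order optimality condition. -/
theorem le_one_of_forall_pow_mul_le {m : ℕ} {a : ℝ}
    (h : ∀ t : ℝ, 0 < t → t < 1 → (1 - t) ^ m * (1 - t + (m + 1) * a * t) ≤ 1) : a ≤ 1 := by
  by_contra ha
  push Not at ha
  have hm : (0 : ℝ) ≤ m := Nat.cast_nonneg m
  set b : ℝ := (m + 1) * a - 1 with hb
  have hbm : (m : ℝ) < b := by nlinarith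
  have hb0 : 0 < b := lt_of_le_of_lt hm hbm
  set t : ℝ := (b - m) / (m * b + (b - m) + 1) with ht
  have hden : 0 < m * b + (b - m) + 1 := by nlinarith [mul_nonneg hm hb0.le]
  have ht0 : 0 < t := div_pos (by linarith) hden
  have ht1 : t < 1 := by
    rw [ht, div_lt_one hden]; nlinarith [mul_nonneg hm hb0.le]
  have hmul : t * (m * b + (b - m) + 1) = b - m := div_mul_cancel₀ _ hden.ne'
  have hB : 1 + (m : ℝ) * (-t) ≤ (1 + -t) ^ m := one_add_mul_le_pow (by linarith) m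
  have h1 := h t ht0 ht1
  have e1 : 1 - t + (m + 1) * a * t = 1 + b * t := by rw [hb]; ring
  rw [e1] at h1
  have hpos : 0 < 1 + b * t := by positivity
  have h2 : (1 + (m : ℝ) * (-t)) * (1 + b * t) ≤ 1 := by
    calc _ ≤ (1 + -t) ^ m * (1 + b * t) := by gcongr
      _ = (1 - t) ^ m * (1 + b * t) := by rw [← sub_eq_add_neg]
      _ ≤ 1 := h1
  have h3 : t * ((b - m) - t * (m * b)) ≤ 0 := by nlinarith
  have h4 : 0 < (b - m) - t * (m * b) := by nlinarith
  nlinarith [mul_pos ht0 h4]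

/-- Matrix form of John's decomposition of the identity (via a determinant-maximal design). -/
theorem john_matrix {n : ℕ} (hn : 0 < n) (K : Set (Fin n → ℝ)) (hK : IsCompact K) {ε : ℝ}
    (hε : 0 < ε) (hεK : ∀ j, ε • (Pi.single j 1 : Fin n → ℝ) ∈ K) :
    ∃ R : Matrix (Fin n) (Fin n) ℝ, R.det ≠ 0 ∧
      ∃ (ι : Type) (_ : Fintype ι) (c : ι → ℝ) (u : ι → Fin n → ℝ), (∀ i, 0 ≤ c i) ∧
        ∑ i, c i = n ∧ ∑ i, c i • vecMulVec (u i) (u i) = 1 ∧ (∀ i, Rᵀ *ᵥ u i ∈ K) ∧
        ∀ v, Rᵀ *ᵥ v ∈ K → v ⬝ᵥ v ≤ 1 := by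
  classical
  have hn' : (0 : ℝ) < n := by exact_mod_cast hn
  let S : Set (Matrix (Fin n) (Fin n) ℝ) := (fun v => vecMulVec v v) '' K
  have hS : IsCompact S := hK.image (continuous_id.matrix_vecMulVec continuous_id)
  have hC : IsCompact (convexHull ℝ S) := isCompact_convexHull_of_isCompact hS
  have h0 : (ε ^ 2 / n) • (1 : Matrix (Fin n) (Fin n) ℝ) ∈ convexHull ℝ S := by
    refine mem_convexHull_of_exists_fintype (fun _ : Fin n => (1 / n : ℝ))
      (fun j => vecMulVec (ε • (Pi.single j 1 : Fin n → ℝ)) (ε • (Pi.single j 1 : Fin n → ℝ)))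
      (fun _ => by positivity) ?_ (fun j => ⟨_, hεK j, rfl⟩) ?_
    · simp only [Finset.sum_const, Finset.card_univ, Fintype.card_fin, nsmul_eq_mul]
      field_simp
    · ext a b
      simp only [Matrix.sum_apply, Matrix.smul_apply, vecMulVec_apply, Pi.smul_apply, smul_eq_mul,
        Pi.single_apply, Matrix.one_apply]
      by_cases hab : a = b
      · subst hab
        rw [Finset.sum_eq_single a]
        · simp; field_simp
        · intro j _ hj
          simp [Ne.symm hj]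
        · simp
      · rw [Finset.sum_eq_zero]
        · simp [hab]
        · intro j _
          by_cases h1 : a = j
          · have : b ≠ j := fun h2 => hab (h1.trans h2.symm)
            simp [this]
          · simp [h1]
  obtain ⟨Q, hQ, hmax⟩ := hC.exists_isMaxOn ⟨_, h0⟩
    (continuous_id.matrix_det (R := ℝ) (n := Fin n)).continuousOn
  have hdetQ : 0 < Q.det := by
    have := hmax h0
    simp only [mem_ofPred_eq, id, det_smul, det_one, mul_one] at this
    exact lt_of_lt_of_le (by positivity) this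
  obtain ⟨ι, hι, w, z, hw0, hw1, hz, hQe⟩ := mem_convexHull_iff_exists_fintype.1 hQ
  choose v hvK hvz using hz
  have hPSD : ((n : ℝ) • Q).PosSemidef := by
    refine PosSemidef.smul ?_ hn'.le
    rw [← hQe]
    refine posSemidef_sum _ fun i _ => PosSemidef.smul ?_ (hw0 i)
    rw [← hvz i]
    simpa using posSemidef_vecMulVec_self_star (v i)
  obtain ⟨R, hR⟩ := CStarAlgebra.nonneg_iff_eq_star_mul_self.mp hPSD.nonneg
  have hR' : (n : ℝ) • Q = Rᵀ * R := by
    rw [hR]; simp [star_eq_conjTranspose]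
  have hdet : (n : ℝ) ^ n * Q.det = R.det ^ 2 := by
    have := congrArg det hR'
    rw [det_smul, det_mul, det_transpose, Fintype.card_fin] at this
    rw [this]; ring
  have hRdet : R.det ≠ 0 := by
    intro h
    rw [h] at hdet
    have : 0 < (n : ℝ) ^ n * Q.det := by positivity
    rw [hdet] at this
    norm_num at this
  have hRu : IsUnit R.det := isUnit_iff_ne_zero.2 hRdet
  have hRtu : IsUnit Rᵀ.det := by rwa [det_transpose]
  have conj : ∀ y : Fin n → ℝ, vecMulVec (Rᵀ *ᵥ y) (Rᵀ *ᵥ y) = Rᵀ * vecMulVec y y * R := by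
    intro y
    rw [mul_vecMulVec, vecMulVec_mul, mulVec_transpose]
  refine ⟨R, hRdet, ι, hι, fun i => n * w i, fun i => (Rᵀ)⁻¹ *ᵥ v i,
    fun i => mul_nonneg hn'.le (hw0 i), ?_, ?_, ?_, ?_⟩
  · rw [← Finset.mul_sum, hw1, mul_one]
  · have hback : ∀ i, Rᵀ *ᵥ ((Rᵀ)⁻¹ *ᵥ v i) = v i := by
      intro i
      rw [mulVec_mulVec, mul_nonsing_inv _ hRtu, one_mulVec]
    have h1 : Rᵀ * (∑ i, (n * w i) • vecMulVec ((Rᵀ)⁻¹ *ᵥ v i) ((Rᵀ)⁻¹ *ᵥ v i)) * R
        = Rᵀ * 1 * R := by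
      rw [Matrix.mul_one, ← hR', ← hQe, Finset.smul_sum, Matrix.mul_sum, Matrix.sum_mul]
      refine Finset.sum_congr rfl fun i _ => ?_
      rw [Matrix.mul_smul, Matrix.smul_mul, ← conj, hback, smul_smul, ← hvz i]
    have h2 := congrArg (fun M => (Rᵀ)⁻¹ * M * R⁻¹) h1
    simp only [← Matrix.mul_assoc, nonsing_inv_mul _ hRtu, Matrix.one_mul] at h2
    simpa only [Matrix.mul_assoc, mul_nonsing_inv _ hRu, Matrix.mul_one] using h2
  · intro i
    rw [mulVec_mulVec, mul_nonsing_inv _ hRtu, one_mulVec]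
    exact hvK i
  · intro y hy
    obtain ⟨m, rfl⟩ : ∃ m, n = m + 1 := ⟨n - 1, by omega⟩
    apply le_one_of_forall_pow_mul_le (m := m)
    intro t ht0 ht1
    have hmem : (1 - t) • Q + t • vecMulVec (Rᵀ *ᵥ y) (Rᵀ *ᵥ y) ∈ convexHull ℝ S :=
      (convex_convexHull ℝ S) hQ (subset_convexHull ℝ S ⟨_, hy, rfl⟩) (by linarith) ht0.le
        (by ring)
    have hle := hmax hmem
    simp only [mem_ofPred_eq, id] at hle
    have h1t : 0 < 1 - t := by linarith
    set N : ℝ := ((m + 1 : ℕ) : ℝ) with hN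
    have hQ' : Q = N⁻¹ • (Rᵀ * R) := by
      rw [← hR', smul_smul, inv_mul_cancel₀ hn'.ne', one_smul]
    have e : (1 - t) • Q + t • vecMulVec (Rᵀ *ᵥ y) (Rᵀ *ᵥ y)
        = ((1 - t) / N) • (Rᵀ * (1 + replicateCol Unit ((N * t / (1 - t)) • y)
            * replicateRow Unit y) * R) := by
      rw [conj, hQ', ← vecMulVec_eq, smul_vecMulVec, Matrix.mul_add, Matrix.add_mul,
        Matrix.mul_one, Matrix.mul_smul, Matrix.smul_mul, smul_add, smul_smul, smul_smul]
      congr 2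
      field_simp
    rw [e, det_smul, det_mul, det_mul, det_transpose, det_one_add_replicateCol_mul_replicateRow,
      Fintype.card_fin, dotProduct_smul, smul_eq_mul] at hle
    have hQd : Q.det = R.det ^ 2 / N ^ (m + 1) := by
      rw [← hdet]; field_simp
    rw [hQd] at hle
    have hR2 : 0 < R.det ^ 2 := by positivity
    have hNpow : 0 < N ^ (m + 1) := by positivity
    have e2 : ((1 - t) / N) ^ (m + 1) * (R.det * (1 + N * t / (1 - t) * (y ⬝ᵥ y)) * R.det)
        = ((1 - t) ^ m * (1 - t + N * (y ⬝ᵥ y) * t)) * (R.det ^ 2 / N ^ (m + 1)) := by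
      rw [div_pow]; field_simp; ring
    rw [e2] at hle
    have := (mul_le_iff_le_one_left (div_pos hR2 hNpow)).1 hle
    have hN' : N = (m : ℝ) + 1 := by rw [hN]; push_cast; ring
    rwa [hN'] at this

/-- John position of a finite-dimensional normed space: a Euclidean structure dominating the norm,
with a decomposition of the identity into functionals of norm at most one. -/
theorem exists_john (X : Type*) [NormedAddCommGroup X] [NormedSpace ℝ X] [FiniteDimensional ℝ X]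
    {n : ℕ} (hn : 0 < n) (hX : Module.finrank ℝ X = n) :
    ∃ (J : X ≃L[ℝ] EuclideanSpace ℝ (Fin n)) (ι : Type) (_ : Fintype ι) (c : ι → ℝ)
      (u : ι → EuclideanSpace ℝ (Fin n)), (∀ i, 0 ≤ c i) ∧ ∑ i, c i = n ∧
      (∀ y, ∑ i, (c i * ⟪u i, y⟫) • u i = y) ∧ (∀ i x, |⟪u i, J x⟫| ≤ ‖x‖) ∧
      ∀ x, ‖x‖ ≤ ‖J x‖ := by
  classical
  let b : Module.Basis (Fin n) ℝ X := Module.finBasisOfFinrankEq ℝ X hX
  let e : X ≃L[ℝ] (Fin n → ℝ) := b.equivFun.toContinuousLinearEquiv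
  let K : Set (Fin n → ℝ) := {v | ∀ x, |v ⬝ᵥ e x| ≤ ‖x‖}
  have hKc : IsClosed K := by
    simp only [K, ofPred_forall]
    refine isClosed_iInter fun x => isClosed_le ?_ continuous_const
    exact (continuous_id.dotProduct continuous_const).abs
  have hK : IsCompact K := by
    refine (isCompact_univ_pi fun j => isCompact_Icc (a := -‖b j‖) (b := ‖b j‖)).of_isClosed_subset
      hKc ?_
    intro v hv j _
    have := hv (b j)
    have h2 : v ⬝ᵥ e (b j) = v j := by
      have : e (b j) = Pi.single j 1 := by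
        ext k
        simp [e, Pi.single_apply, eq_comm]
      rw [this]; simp
    rw [h2] at this
    exact abs_le.1 this
  set C : ℝ := ‖(e : X →L[ℝ] (Fin n → ℝ))‖ + 1 with hC
  have hC0 : 0 < C := by positivity
  have hεK : ∀ j, C⁻¹ • (Pi.single j 1 : Fin n → ℝ) ∈ K := by
    intro j x
    have h1 : |e x j| ≤ C * ‖x‖ := by
      calc |e x j| = ‖e x j‖ := rfl
        _ ≤ ‖e x‖ := norm_le_pi_norm _ _
        _ ≤ ‖(e : X →L[ℝ] (Fin n → ℝ))‖ * ‖x‖ := (e : X →L[ℝ] (Fin n → ℝ)).le_opNorm x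
        _ ≤ C * ‖x‖ := by gcongr; linarith
    rw [smul_dotProduct, single_dotProduct, one_mul, smul_eq_mul, abs_mul,
      abs_of_pos (inv_pos.2 hC0), inv_mul_le_iff₀ hC0]
    exact h1
  obtain ⟨R, hR, ι, hι, c, u, hc0, hcn, hid, huK, hK1⟩ := john_matrix hn K hK (inv_pos.2 hC0) hεK
  have hRu : IsUnit R.det := isUnit_iff_ne_zero.2 hR
  have hRtu : IsUnit Rᵀ.det := by rwa [det_transpose]
  let Rl : (Fin n → ℝ) ≃ₗ[ℝ] (Fin n → ℝ) := R.toLinearEquiv' (invertibleOfIsUnitDet R hRu)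
  have hRl : ∀ v, Rl v = R *ᵥ v := fun v => rfl
  let J : X ≃L[ℝ] EuclideanSpace ℝ (Fin n) :=
    (e.trans Rl.toContinuousLinearEquiv).trans (EuclideanSpace.equiv (Fin n) ℝ).symm
  have hJ : ∀ x, J x = WithLp.toLp 2 (R *ᵥ e x) := fun x => rfl
  have hinner : ∀ (v : Fin n → ℝ) x, ⟪WithLp.toLp 2 v, J x⟫ = (Rᵀ *ᵥ v) ⬝ᵥ e x := by
    intro v x
    rw [hJ, EuclideanSpace.inner_toLp_toLp, star_trivial, dotProduct_comm, dotProduct_mulVec,
      mulVec_transpose]
  refine ⟨J, ι, hι, c, fun i => WithLp.toLp 2 (u i), hc0, hcn, ?_, ?_, ?_⟩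
  · intro y
    have h1 := congrArg (fun M => M *ᵥ y.ofLp) hid
    simp only [one_mulVec, sum_mulVec, smul_mulVec, vecMulVec_mulVec] at h1
    ext k
    have h2 := congrFun h1 k
    simp only [Finset.sum_apply, Pi.smul_apply, smul_eq_mul, MulOpposite.smul_eq_mul_unop,
      MulOpposite.unop_op] at h2
    rw [← h2]
    simp only [WithLp.ofLp_sum, Finset.sum_apply, WithLp.ofLp_smul, Pi.smul_apply, smul_eq_mul]
    refine Finset.sum_congr rfl fun i _ => ?_
    rw [EuclideanSpace.inner_eq_star_dotProduct, star_trivial, dotProduct_comm]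
    ring
  · intro i x
    rw [hinner]
    exact huK i x
  · intro x
    obtain ⟨g, hg1, hgx⟩ := exists_dual_vector'' ℝ x
    let v : Fin n → ℝ := fun j => g (b j)
    have hv : ∀ y, v ⬝ᵥ e y = g y := by
      intro y
      have h1 : g y = g (∑ i, b.repr y i • b i) := by rw [b.sum_repr y]
      rw [h1, map_sum]
      simp [v, e, dotProduct, mul_comm]
    have hvK : v ∈ K := by
      intro y
      rw [hv]
      calc |g y| = ‖g y‖ := rfl
        _ ≤ ‖g‖ * ‖y‖ := g.le_opNorm y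
        _ ≤ 1 * ‖y‖ := by gcongr
        _ = ‖y‖ := one_mul _
    let w : Fin n → ℝ := (Rᵀ)⁻¹ *ᵥ v
    have hw : Rᵀ *ᵥ w = v := by
      simp only [w]
      rw [mulVec_mulVec, mul_nonsing_inv _ hRtu, one_mulVec]
    have hw1 : w ⬝ᵥ w ≤ 1 := hK1 w (hw ▸ hvK)
    have hnorm : ‖(WithLp.toLp 2 w : EuclideanSpace ℝ (Fin n))‖ ≤ 1 := by
      have : ‖(WithLp.toLp 2 w : EuclideanSpace ℝ (Fin n))‖ ^ 2 ≤ 1 := by
        rw [← real_inner_self_eq_norm_sq, EuclideanSpace.inner_toLp_toLp, star_trivial]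
        exact hw1
      nlinarith [norm_nonneg (WithLp.toLp 2 w : EuclideanSpace ℝ (Fin n))]
    have h1 : ‖x‖ = ⟪WithLp.toLp 2 w, J x⟫ := by
      rw [hinner, hw, hv, hgx]; rfl
    calc ‖x‖ = ⟪WithLp.toLp 2 w, J x⟫ := h1
      _ ≤ ‖(WithLp.toLp 2 w : EuclideanSpace ℝ (Fin n))‖ * ‖J x‖ := real_inner_le_norm _ _
      _ ≤ 1 * ‖J x‖ := by gcongr
      _ = ‖J x‖ := one_mul _

end Vale.Agent.P084
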