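import Vale.Agent.P084.Step

open Set MeasureTheory Measure Filter Topology Function Metric
open scoped NNReal ENNReal RealInnerProductSpace

namespace Vale.Agent.P084

theorem exists_eq_smul_sphere {X : Type*} [NormedAddCommGroup X] [NormedSpace ℝ X] {x : X}
    (hx : x ≠ 0) : ∃ a : sphere (0 : X) 1, x = ‖x‖ • (a : X) := by
  have h : ‖x‖ ≠ 0 := norm_ne_zero_iff.2 hx
  exact ⟨⟨‖x‖⁻¹ • x, by simp [norm_smul, h]⟩, by simp [smul_smul, h]⟩

/-- The positively homogeneous extension of an isometry of spheres is Lipschitz. -/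
theorem exists_homogeneous {X Y : Type*} [NormedAddCommGroup X] [NormedSpace ℝ X]
    [NormedAddCommGroup Y] [NormedSpace ℝ Y] (f : sphere (0 : X) 1 → sphere (0 : Y) 1)
    (hf : Isometry f) :
    ∃ F : X → Y, LipschitzWith 3 F ∧ F 0 = 0 ∧
      ∀ (t : ℝ) (a : sphere (0 : X) 1), 0 ≤ t → F (t • (a : X)) = t • (f a : Y) := by
  classical
  let F : X → Y := fun x =>
    if h : x = 0 then 0 else ‖x‖ • (f (exists_eq_smul_sphere h).choose : Y)
  have hF0 : F 0 = 0 := by simp [F]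
  have hFh : ∀ (t : ℝ) (a : sphere (0 : X) 1), 0 ≤ t → F (t • (a : X)) = t • (f a : Y) := by
    intro t a ht
    rcases ht.eq_or_lt with rfl | ht
    · simp [hF0]
    have hn : ‖t • (a : X)‖ = t := by simp [norm_smul, abs_of_pos ht]
    have h : t • (a : X) ≠ 0 := by
      rw [← norm_ne_zero_iff, hn]; exact ht.ne'
    have h1 := (exists_eq_smul_sphere h).choose_spec
    have h2 : (exists_eq_smul_sphere h).choose = a := by
      apply Subtype.ext
      generalize (exists_eq_smul_sphere h).choose = b at h1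
      rw [hn] at h1
      exact (smul_right_injective X ht.ne' h1).symm
    simp only [F, dif_neg h]
    rw [h2, hn]
  refine ⟨F, LipschitzWith.of_dist_le_mul fun x y => ?_, hF0, hFh⟩
  have hnorm : ∀ x, ‖F x‖ = ‖x‖ := by
    intro x
    rcases eq_or_ne x 0 with rfl | hx
    · simp [hF0]
    obtain ⟨a, ha⟩ := exists_eq_smul_sphere hx
    conv_lhs => rw [ha, hFh _ _ (norm_nonneg _)]
    simp [norm_smul]
  rcases eq_or_ne x 0 with rfl | hx
  · simp only [hF0, dist_zero_left, hnorm, NNReal.coe_ofNat]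
    linarith [norm_nonneg y]
  rcases eq_or_ne y 0 with rfl | hy
  · simp only [hF0, dist_zero_right, hnorm, NNReal.coe_ofNat]
    linarith [norm_nonneg x]
  obtain ⟨a, ha⟩ := exists_eq_smul_sphere hx
  obtain ⟨b, hb⟩ := exists_eq_smul_sphere hy
  have hab : ‖(f a : Y) - f b‖ = ‖(a : X) - b‖ := by
    have := hf.dist_eq a b
    rwa [Subtype.dist_eq, Subtype.dist_eq, dist_eq_norm, dist_eq_norm] at this
  have hst : |‖x‖ - ‖y‖| ≤ ‖x - y‖ := abs_norm_sub_norm_le x y
  have hFx : F x = ‖x‖ • (f a : Y) := by conv_lhs => rw [ha, hFh _ _ (norm_nonneg _)]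
  have hFy : F y = ‖y‖ • (f b : Y) := by conv_lhs => rw [hb, hFh _ _ (norm_nonneg _)]
  have h1 : ‖F x - F y‖ ≤ |‖x‖ - ‖y‖| + ‖y‖ * ‖(a : X) - b‖ := by
    have : F x - F y = (‖x‖ - ‖y‖) • (f a : Y) + ‖y‖ • ((f a : Y) - f b) := by
      rw [hFx, hFy]; module
    rw [this]
    refine (norm_add_le _ _).trans (le_of_eq ?_)
    simp [norm_smul, hab]
  have h2 : ‖y‖ * ‖(a : X) - b‖ ≤ ‖x - y‖ + |‖x‖ - ‖y‖| := by
    have : ‖y‖ • ((a : X) - b) = (x - y) - (‖x‖ - ‖y‖) • (a : X) := by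
      rw [smul_sub, sub_smul, ← ha, ← hb]; abel
    calc ‖y‖ * ‖(a : X) - b‖ = ‖‖y‖ • ((a : X) - b)‖ := by simp [norm_smul]
      _ ≤ ‖x - y‖ + ‖(‖x‖ - ‖y‖) • (a : X)‖ := by rw [this]; exact norm_sub_le _ _
      _ = _ := by simp [norm_smul]
  rw [dist_eq_norm, dist_eq_norm, NNReal.coe_ofNat]
  linarith

theorem four_point {E : Type*} [NormedAddCommGroup E] [InnerProductSpace ℝ E] (p q r s : E) :
    ‖p + q - r - s‖ ^ 2 = ‖p - r‖ ^ 2 + ‖p - s‖ ^ 2 + ‖q - r‖ ^ 2 + ‖q - s‖ ^ 2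
      - ‖p - q‖ ^ 2 - ‖r - s‖ ^ 2 := by
  simp only [← real_inner_self_eq_norm_sq, inner_sub_left, inner_sub_right, inner_add_left,
    inner_add_right, real_inner_comm]
  ring

/-- Tingley's problem for a finite-dimensional domain. -/
theorem tingley_finiteDimensional {X Y : Type*} [NormedAddCommGroup X] [NormedSpace ℝ X]
    [FiniteDimensional ℝ X] [NormedAddCommGroup Y] [NormedSpace ℝ Y]
    (f : sphere (0 : X) 1 → sphere (0 : Y) 1) (hf : Isometry f) (hs : Surjective f) :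
    ∃ T : X ≃ₗᵢ[ℝ] Y, ∀ x : sphere (0 : X) 1, T x = f x := by
  let e : sphere (0 : X) 1 ≃ᵢ sphere (0 : Y) 1 := ⟨Equiv.ofBijective f ⟨hf.injective, hs⟩, hf⟩
  have he : ∀ a, e a = f a := fun a => rfl
  obtain ⟨F, hF, hF0, hFh⟩ := exists_homogeneous f hf
  obtain ⟨G, hG, hG0, hGh⟩ := exists_homogeneous e.symm e.symm.isometry
  have hGF : LeftInverse G F := by
    intro x
    rcases eq_or_ne x 0 with rfl | hx
    · rw [hF0, hG0]
    obtain ⟨a, ha⟩ := exists_eq_smul_sphere hx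
    conv_lhs => rw [ha, hFh _ _ (norm_nonneg _), hGh _ _ (norm_nonneg _), ← he]
    rw [e.symm_apply_apply, ← ha]
  have hFG : RightInverse G F := by
    intro y
    rcases eq_or_ne y 0 with rfl | hy
    · rw [hG0, hF0]
    obtain ⟨a, ha⟩ := exists_eq_smul_sphere hy
    conv_lhs => rw [ha, hGh _ _ (norm_nonneg _), hFh _ _ (norm_nonneg _), ← he]
    rw [e.apply_symm_apply, ← ha]
  have hF1 : ∀ a : sphere (0 : X) 1, F a = f a := fun a => by
    simpa using hFh 1 a zero_le_one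
  have hFn : ∀ x, ‖F x‖ = ‖x‖ := by
    intro x
    rcases eq_or_ne x 0 with rfl | hx
    · simp [hF0]
    obtain ⟨a, ha⟩ := exists_eq_smul_sphere hx
    conv_lhs => rw [ha, hFh _ _ (norm_nonneg _)]
    simp [norm_smul]
  have hGn : ∀ y, ‖G y‖ = ‖y‖ := fun y => by rw [← hFn, hFG]
  have hFs : ∀ x y, ‖x‖ = 1 → ‖y‖ = 1 → ‖F x - F y‖ = ‖x - y‖ := by
    intro x y hx hy
    have h1 := hF1 ⟨x, by simpa using hx⟩
    have h2 := hF1 ⟨y, by simpa using hy⟩
    have := hf.dist_eq ⟨x, by simpa using hx⟩ ⟨y, by simpa using hy⟩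
    rw [Subtype.dist_eq, Subtype.dist_eq, dist_eq_norm, dist_eq_norm, ← h1, ← h2] at this
    exact this
  have hGs : ∀ x y, ‖x‖ = 1 → ‖y‖ = 1 → ‖G x - G y‖ = ‖x - y‖ := by
    intro x y hx hy
    rw [← hFs _ _ (by rw [hGn, hx]) (by rw [hGn, hy]), hFG, hFG]
  have hhom : ∀ (t : ℝ) (x : X), 0 ≤ t → ‖x‖ = 1 → F (t • x) = t • F x := by
    intro t x ht hx
    have h1 := hF1 ⟨x, by simpa using hx⟩
    have h2 := hFh t ⟨x, by simpa using hx⟩ ht
    rw [← h1] at h2
    exact h2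
  -- `Y` is finite-dimensional of the same dimension
  have : FiniteDimensional ℝ Y := by
    apply FiniteDimensional.of_isCompact_closedBall₀ ℝ zero_lt_one
    have : closedBall (0 : Y) 1 = F '' closedBall 0 1 := by
      ext y
      simp only [mem_image, mem_closedBall_zero_iff]
      constructor
      · intro hy
        exact ⟨G y, by rwa [hGn], hFG y⟩
      · rintro ⟨x, hx, rfl⟩; rwa [hFn]
    rw [this]
    exact (isCompact_closedBall 0 1).image hF.continuous
  have hdim : Module.finrank ℝ Y = Module.finrank ℝ X := by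
    have h1 := hF.dimH_range_le
    have h2 := hG.dimH_range_le
    rw [hFG.surjective.range_eq, Real.dimH_univ_eq_finrank, Real.dimH_univ_eq_finrank] at h1
    rw [hGF.surjective.range_eq, Real.dimH_univ_eq_finrank, Real.dimH_univ_eq_finrank] at h2
    exact_mod_cast le_antisymm h1 h2
  -- it is enough to show that `F` is linear
  suffices hlin : IsLinearMap ℝ F by
    let T₀ : X →ₗᵢ[ℝ] Y := ⟨hlin.mk' F, hFn⟩
    exact ⟨LinearIsometryEquiv.ofSurjective T₀ hFG.surjective, fun x => hF1 x⟩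
  rcases Nat.eq_zero_or_pos (Module.finrank ℝ X) with h0 | hn
  · have : Subsingleton Y := Module.finrank_zero_iff.1 (hdim.trans h0)
    exact ⟨fun _ _ => Subsingleton.elim _ _, fun _ _ => Subsingleton.elim _ _⟩
  obtain ⟨JX, ιX, _, cX, uX, hcX, hcXn, huX, huX', hJX⟩ := exists_john X hn rfl
  obtain ⟨JY, ιY, _, cY, uY, hcY, hcYn, huY, huY', hJY⟩ := exists_john Y hn hdim
  obtain ⟨v1, c1⟩ := step hn JX JY hJX hcY hcYn huY huY' hF hG hGF hFG hFn hFs
  obtain ⟨v2, c2⟩ := step hn JY JX hJY hcX hcXn huX huX' hG hF hFG hGF hGn hGs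
  have hE : ∀ x y, ‖x‖ = 1 → ‖y‖ = 1 → ‖JY (F x) - JY (F y)‖ = ‖JX x - JX y‖ := by
    intro x y hx hy
    refine le_antisymm (c1 v2 x y hx hy) ?_
    have := c2 v1 (F x) (F y) (by rw [hFn, hx]) (by rw [hFn, hy])
    rwa [hGF, hGF] at this
  -- oddness
  have hcent : ∀ x y, ‖x‖ = 1 → ‖y‖ = 1 → F x + F (-x) = F y + F (-y) := by
    intro x y hx hy
    have hx' : ‖-x‖ = 1 := by rwa [norm_neg]
    have hy' : ‖-y‖ = 1 := by rwa [norm_neg]
    have h1 := four_point (JY (F x)) (JY (F (-x))) (JY (F y)) (JY (F (-y)))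
    rw [hE _ _ hx hy, hE _ _ hx hy', hE _ _ hx' hy, hE _ _ hx' hy', hE _ _ hx hx',
      hE _ _ hy hy', ← four_point] at h1
    simp only [map_neg, add_neg_cancel, sub_neg_eq_add, zero_sub, neg_add_cancel, norm_zero] at h1
    have h2 : JY (F x) + JY (F (-x)) - JY (F y) - JY (F (-y)) = 0 := by
      simpa using h1
    apply JY.injective
    rw [map_add, map_add, ← sub_eq_zero, ← h2]; abel
  have hodd : ∀ x, ‖x‖ = 1 → F (-x) = -F x := by
    intro x hx
    by_contra hne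
    have hc : F x + F (-x) ≠ 0 := fun h => hne (eq_neg_of_add_eq_zero_right h)
    set c := F x + F (-x) with hcdef
    have hc0 : 0 < ‖c‖ := norm_pos_iff.2 hc
    have hy : ‖-(‖c‖⁻¹ • c)‖ = 1 := by simp [norm_smul, hc0.ne']
    have hz : ‖G (-(‖c‖⁻¹ • c))‖ = 1 := by rw [hGn, hy]
    have h1 := hcent x _ hx hz
    rw [hFG, ← hcdef] at h1
    have h2 : F (-G (-(‖c‖⁻¹ • c))) = (1 + ‖c‖⁻¹) • c := by
      rw [add_smul, one_smul, ← sub_neg_eq_add]
      exact eq_sub_of_add_eq' h1.symm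
    have h3 := hFn (-G (-(‖c‖⁻¹ • c)))
    rw [h2, norm_neg, hz, norm_smul, Real.norm_of_nonneg (by positivity), add_mul,
      inv_mul_cancel₀ hc0.ne'] at h3
    linarith
  have hN : ∀ x, ‖x‖ = 1 → ‖JY (F x)‖ = ‖JX x‖ := by
    intro x hx
    have h1 := hE x (-x) hx (by rwa [norm_neg])
    rw [hodd x hx, map_neg, map_neg, sub_neg_eq_add, sub_neg_eq_add, ← two_smul ℝ,
      ← two_smul ℝ, norm_smul, norm_smul] at h1
    simpa using h1
  have hI : ∀ x y, ⟪JY (F x), JY (F y)⟫ = ⟪JX x, JX y⟫ := by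
    intro x y
    rcases eq_or_ne x 0 with rfl | hx
    · simp [hF0]
    rcases eq_or_ne y 0 with rfl | hy
    · simp [hF0]
    obtain ⟨⟨a, ha1⟩, ha⟩ := exists_eq_smul_sphere hx
    obtain ⟨⟨b, hb1⟩, hb⟩ := exists_eq_smul_sphere hy
    rw [mem_sphere_zero_iff_norm] at ha1 hb1
    simp only at ha hb
    have h1 : ⟪JY (F a), JY (F b)⟫ = ⟪JX a, JX b⟫ := by
      have h2 := norm_sub_sq_real (JY (F a)) (JY (F b))
      have h3 := norm_sub_sq_real (JX a) (JX b)
      rw [hE _ _ ha1 hb1, hN _ ha1, hN _ hb1] at h2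
      linarith
    rw [ha, hb, hhom _ _ (norm_nonneg _) ha1, hhom _ _ (norm_nonneg _) hb1]
    simp only [map_smul, real_inner_smul_left, real_inner_smul_right, h1]
  have hz : ∀ y : Y, (∀ x, ⟪JY y, JY (F x)⟫ = 0) → y = 0 := by
    intro y hy
    have := hy (G y)
    rw [hFG, inner_self_eq_zero] at this
    simpa using this
  refine ⟨fun x y => ?_, fun t x => ?_⟩
  · rw [← sub_eq_zero]
    apply hz
    intro w
    simp only [map_sub, map_add, inner_sub_left, inner_add_left, hI, sub_self]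
  · rw [← sub_eq_zero]
    apply hz
    intro w
    simp only [map_sub, map_smul, inner_sub_left, real_inner_smul_left, hI, sub_self]

end Vale.Agent.P084
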