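import Mathlib

open Set MeasureTheory Measure Filter Topology Function
open scoped NNReal ENNReal

namespace Vale.Agent.P084

section

variable {E : Type*} [NormedAddCommGroup E] [NormedSpace ℝ E] [FiniteDimensional ℝ E]

/-- Interpolation weights: a polynomial identity for determinants along a line of operators. -/
theorem exists_det_weights (t₀ : ℝ) (ht₀ : 0 < t₀) :
    ∃ (N : ℕ) (t w : Fin N → ℝ), (∀ j, t j ∈ Icc 0 t₀) ∧ ∑ j, w j = 1 ∧
      ∀ a d : E →L[ℝ] E, ∑ j, w j * (a + t j • d).det = (a + d).det := by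
  classical
  set n := Module.finrank ℝ E
  let v : Fin (n + 1) → ℝ := fun j => t₀ / ((j : ℝ) + 1)
  have hv : Set.InjOn v (Finset.univ : Finset (Fin (n + 1))) := by
    intro i _ j _ h
    simp only [v] at h
    have hi : (0 : ℝ) < (i : ℝ) + 1 := by positivity
    have hj : (0 : ℝ) < (j : ℝ) + 1 := by positivity
    rw [div_eq_div_iff hi.ne' hj.ne'] at h
    have h2 : ((j : ℕ) : ℝ) = ((i : ℕ) : ℝ) := by
      have := mul_left_cancel₀ ht₀.ne' h
      linarith
    exact Fin.ext (by exact_mod_cast h2.symm)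
  refine ⟨n + 1, v, fun j => (Lagrange.basis Finset.univ v j).eval 1, ?_, ?_, ?_⟩
  · intro j
    have hj : (1 : ℝ) ≤ (j : ℝ) + 1 := by have : (0 : ℝ) ≤ (j : ℝ) := by positivity
                                          linarith
    exact ⟨by positivity, div_le_self ht₀.le hj⟩
  · rw [← Polynomial.eval_finsetSum, Lagrange.sum_basis hv Finset.univ_nonempty,
      Polynomial.eval_one]
  · intro a d
    let b := Module.finBasis ℝ E
    let A := LinearMap.toMatrix b b (a : E →ₗ[ℝ] E)
    let D := LinearMap.toMatrix b b (d : E →ₗ[ℝ] E)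
    let p : Polynomial ℝ :=
      Matrix.det ((Polynomial.X : Polynomial ℝ) • D.map Polynomial.C + A.map Polynomial.C)
    have hp : ∀ s : ℝ, p.eval s = (a + s • d).det := by
      intro s
      have h1 : p.eval s = Matrix.det (s • D + A) := by
        simp only [p]
        rw [← Polynomial.coe_evalRingHom, RingHom.map_det]
        congr 1
        ext i j
        simp
        ring
      rw [h1, ContinuousLinearMap.det, ← LinearMap.det_toMatrix b]
      congr 1
      simp [A, D, add_comm]
    have hdeg : p.degree < (Finset.univ : Finset (Fin (n + 1))).card := by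
      have h1 : p.natDegree ≤ n := by
        simpa using Polynomial.natDegree_det_X_add_C_le D A
      rw [Finset.card_univ, Fintype.card_fin]
      exact lt_of_le_of_lt (Polynomial.degree_le_of_natDegree_le h1)
        (by exact_mod_cast Nat.lt_succ_self n)
    have h2 := congrArg (Polynomial.eval 1) (Lagrange.eq_interpolate hv hdeg)
    rw [Lagrange.interpolate_apply, Polynomial.eval_finsetSum, hp, one_smul] at h2
    rw [h2]
    refine Finset.sum_congr rfl fun j _ => ?_
    rw [Polynomial.eval_mul, Polynomial.eval_C, hp, mul_comm]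

omit [FiniteDimensional ℝ E] in
theorem sum_abs_det_le {t₀ : ℝ} {N : ℕ} {t w : Fin N → ℝ} (ht : ∀ j, t j ∈ Icc 0 t₀)
    (a d : E →L[ℝ] E) (hw : ∑ j, w j * (a + t j • d).det = (a + d).det)
    (hne : ∀ s ∈ Icc 0 t₀, (a + s • d).det ≠ 0) :
    ∑ j, w j * |(a + t j • d).det| ≤ |(a + d).det| := by
  have hc : Continuous fun s : ℝ => (a + s • d).det :=
    ContinuousLinearMap.continuous_det.comp (by fun_prop)
  by_cases hpos : ∀ s ∈ Icc 0 t₀, 0 < (a + s • d).det
  · calc _ = ∑ j, w j * (a + t j • d).det :=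
          Finset.sum_congr rfl fun j _ => by rw [abs_of_pos (hpos _ (ht j))]
      _ = _ := hw
      _ ≤ _ := le_abs_self _
  · push Not at hpos
    obtain ⟨s₀, hs₀, hs₀'⟩ := hpos
    have hneg : ∀ s ∈ Icc 0 t₀, (a + s • d).det < 0 := by
      intro s hs
      by_contra h
      push Not at h
      obtain ⟨r, hr, hr0⟩ := isPreconnected_Icc.intermediate_value hs₀ hs hc.continuousOn
        (show (0 : ℝ) ∈ Icc _ _ from ⟨hs₀', h⟩)
      exact hne r hr hr0
    calc _ = -∑ j, w j * (a + t j • d).det := by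
          rw [← Finset.sum_neg_distrib]
          exact Finset.sum_congr rfl fun j _ => by rw [abs_of_neg (hneg _ (ht j))]; ring
      _ = -(a + d).det := by rw [hw]
      _ ≤ _ := neg_le_abs _

omit [FiniteDimensional ℝ E] in
theorem norm_le_of_antilipschitz {φ : E → E} {K : ℝ≥0} (h : AntilipschitzWith K φ)
    {x : E} {M : E →L[ℝ] E} (hM : HasFDerivAt φ M x) (v : E) : ‖v‖ ≤ K * ‖M v‖ := by
  have h1 := ((hM.lim_real v).norm).const_mul (K : ℝ)
  refine ge_of_tendsto h1 ?_
  filter_upwards [eventually_gt_atTop (0 : ℝ)] with c hc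
  have h2 := h.le_mul_dist (x + c⁻¹ • v) x
  rw [dist_eq_norm, dist_eq_norm, add_sub_cancel_left, norm_smul, norm_inv,
    Real.norm_of_nonneg hc.le, inv_mul_le_iff₀ hc] at h2
  rw [norm_smul, Real.norm_of_nonneg hc.le]
  linarith

variable [MeasurableSpace E] [BorelSpace E] (μ : Measure E) [IsAddHaarMeasure μ]

theorem measure_image_null {φ : E → E} {K : ℝ≥0} (h : LipschitzWith K φ) {s : Set E}
    (hs : μ s = 0) : μ (φ '' s) = 0 := by
  have h1 : (μH[Module.finrank ℝ E] : Measure E) s = 0 :=
    absolutelyContinuous_isAddHaarMeasure _ μ hs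
  have h2 := h.hausdorffMeasure_image_le (d := Module.finrank ℝ E) (by positivity) s
  rw [h1, mul_zero] at h2
  exact absolutelyContinuous_isAddHaarMeasure μ _ (le_antisymm h2 zero_le)

/-- Milnor-Rogers argument: a Lipschitz perturbation supported in `A` of a bi-Lipschitz
homeomorphism has Jacobian integral at least the volume of the image of `A`. -/
theorem measureReal_image_le_integral {φ ψ D : E → E} {K L M : ℝ≥0}
    (hφ : LipschitzWith M φ) (hψ : LipschitzWith K ψ) (hψφ : LeftInverse ψ φ)
    (hφψ : RightInverse ψ φ) (hD : LipschitzWith L D) {A : Set E} (hA : MeasurableSet A)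
    (hfin : μ (φ '' A) ≠ ∞) (hD0 : ∀ x, x ∉ A → D x = 0)
    (hint : IntegrableOn (fun x => |(fderiv ℝ (fun y => φ y + D y) x).det|) A μ) :
    μ.real (φ '' A) ≤ ∫ x in A, |(fderiv ℝ (fun y => φ y + D y) x).det| ∂μ := by
  have hanti : ∀ x y, ‖x - y‖ ≤ K * ‖φ x - φ y‖ := by
    intro x y
    have := hψ.dist_le_mul (φ x) (φ y)
    rwa [hψφ, hψφ, dist_eq_norm, dist_eq_norm] at this
  have hanti' : AntilipschitzWith K φ :=
    AntilipschitzWith.of_le_mul_dist fun x y => by simpa [dist_eq_norm] using hanti x y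
  set t₀ : ℝ := 1 / (2 * (K * L + 1)) with ht₀
  have hKL : (0 : ℝ) ≤ K * L := by positivity
  have ht₀pos : 0 < t₀ := by positivity
  have hsmall : ∀ s ∈ Icc 0 t₀, (K : ℝ) * L * s ≤ 1 / 2 := by
    intro s hs
    have h1 : t₀ * (2 * (K * L + 1)) = 1 := by rw [ht₀]; field_simp
    nlinarith [hs.1, hs.2, mul_le_mul_of_nonneg_left hs.2 hKL]
  have hDle : ∀ x y, ‖D x - D y‖ ≤ L * ‖x - y‖ := fun x y => by
    simpa [dist_eq_norm] using hD.dist_le_mul x y
  -- the perturbed maps
  have hinj : ∀ s ∈ Icc 0 t₀, Injective fun y => φ y + s • D y := by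
    intro s hs x y hxy
    simp only at hxy
    have h1 : φ x - φ y = s • (D y - D x) := by
      rw [smul_sub, sub_eq_sub_iff_add_eq_add, hxy, add_comm]
    have h2 := hanti x y
    rw [h1, norm_smul, Real.norm_of_nonneg hs.1] at h2
    have h3 := hDle y x
    rw [norm_sub_rev y x] at h3
    have h4 : ‖x - y‖ ≤ (K * L * s) * ‖x - y‖ := by
      calc ‖x - y‖ ≤ K * (s * ‖D y - D x‖) := h2
        _ ≤ K * (s * (L * ‖x - y‖)) := by gcongr; exact hs.1
        _ = _ := by ring
    have h5 := hsmall s hs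
    have h6 : ‖x - y‖ ≤ 0 := by nlinarith [norm_nonneg (x - y)]
    exact sub_eq_zero.1 (norm_le_zero_iff.1 h6)
  have hsurj : ∀ s ∈ Icc 0 t₀, Surjective fun y => φ y + s • D y := by
    intro s hs y
    have hc : ContractingWith (1 / 2) fun x => ψ (y - s • D x) := by
      refine ⟨by norm_num, LipschitzWith.of_dist_le_mul fun x x' => ?_⟩
      have h1 := hψ.dist_le_mul (y - s • D x) (y - s • D x')
      have h2 : dist (y - s • D x) (y - s • D x') = s * ‖D x' - D x‖ := by
        rw [dist_eq_norm, show y - s • D x - (y - s • D x') = s • (D x' - D x) by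
          rw [smul_sub]; abel, norm_smul, Real.norm_of_nonneg hs.1]
      have h3 := hDle x' x
      rw [norm_sub_rev x' x, ← dist_eq_norm x x'] at h3
      have h5 := hsmall s hs
      rw [h2] at h1
      calc _ ≤ K * (s * ‖D x' - D x‖) := h1
        _ ≤ K * (s * (L * dist x x')) := by gcongr; exact hs.1
        _ = (K * L * s) * dist x x' := by ring
        _ ≤ (1 / 2) * dist x x' := by gcongr
        _ = _ := by norm_num
    have : CompleteSpace E := FiniteDimensional.complete ℝ E
    refine ⟨hc.fixedPoint, ?_⟩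
    have h1 : ψ (y - s • D hc.fixedPoint) = hc.fixedPoint := hc.fixedPoint_isFixedPt
    have h2 := congrArg φ h1
    rw [hφψ] at h2
    simp only
    rw [← h2]; abel
  have himg : ∀ s ∈ Icc 0 t₀, (fun y => φ y + s • D y) '' A = φ '' A := by
    intro s hs
    have hb : Bijective fun y => φ y + s • D y := ⟨hinj s hs, hsurj s hs⟩
    have hb0 : Bijective φ := ⟨hψφ.injective, hφψ.surjective⟩
    apply compl_injective
    rw [← image_compl_eq hb, ← image_compl_eq hb0]
    refine image_congr fun x hx => ?_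
    rw [hD0 x hx, smul_zero, add_zero]
  -- the set of differentiability
  let S : Set E := A ∩ ({x | DifferentiableAt ℝ φ x} ∩ {x | DifferentiableAt ℝ D x})
  have hS : MeasurableSet S :=
    hA.inter ((measurableSet_of_differentiableAt ℝ φ).inter (measurableSet_of_differentiableAt ℝ D))
  have hnull : μ (A \ S) = 0 := by
    have h1 : ∀ᵐ x ∂μ, DifferentiableAt ℝ φ x ∧ DifferentiableAt ℝ D x :=
      (hφ.ae_differentiableAt).and hD.ae_differentiableAt
    refine measure_mono_null ?_ h1
    intro x hx hx'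
    exact hx.2 ⟨hx.1, hx'⟩
  have hSA : S =ᵐ[μ] A := by
    rw [ae_eq_set]
    refine ⟨?_, hnull⟩
    rw [sdiff_eq_empty.2 inter_subset_left, measure_empty]
  have hder : ∀ s : ℝ, ∀ x ∈ S, HasFDerivAt (fun y => φ y + s • D y)
      (fderiv ℝ φ x + s • fderiv ℝ D x) x := fun s x hx =>
    hx.2.1.hasFDerivAt.add (hx.2.2.hasFDerivAt.const_smul s)
  have hlip : ∀ s : ℝ, ∃ C, LipschitzWith C fun y => φ y + s • D y := fun s =>
    ⟨_, hφ.add ((lipschitzWith_smul s).comp hD)⟩
  have hmeas : ∀ s ∈ Icc 0 t₀, μ ((fun y => φ y + s • D y) '' S) = μ (φ '' A) := by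
    intro s hs
    obtain ⟨C, hC⟩ := hlip s
    rw [← himg s hs]
    refine le_antisymm (measure_mono (image_mono inter_subset_left)) ?_
    calc μ ((fun y => φ y + s • D y) '' A)
        ≤ μ ((fun y => φ y + s • D y) '' S ∪ (fun y => φ y + s • D y) '' (A \ S)) := by
          apply measure_mono
          rw [← image_union]
          refine image_mono fun x hx => ?_
          by_cases h : x ∈ S
          · exact Or.inl h
          · exact Or.inr ⟨hx, h⟩
      _ ≤ μ ((fun y => φ y + s • D y) '' S) + μ ((fun y => φ y + s • D y) '' (A \ S)) :=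
          measure_union_le _ _
      _ = _ := by rw [measure_image_null μ hC hnull, add_zero]
  have hI : ∀ s ∈ Icc 0 t₀,
      ∫ x in S, |(fderiv ℝ φ x + s • fderiv ℝ D x).det| ∂μ = μ.real (φ '' A) := by
    intro s hs
    have h1 := integral_image_eq_integral_abs_det_fderiv_smul μ hS
      (fun x hx => (hder s x hx).hasFDerivWithinAt) (hinj s hs).injOn (fun _ => (1 : ℝ))
    simp only [smul_eq_mul, mul_one, integral_const, MeasurableSet.univ,
      measureReal_restrict_apply, univ_inter] at h1
    rw [← h1, Measure.real, Measure.real, hmeas s hs]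
  have hInt : ∀ s ∈ Icc 0 t₀,
      IntegrableOn (fun x => |(fderiv ℝ φ x + s • fderiv ℝ D x).det|) S μ := by
    intro s hs
    have h1 := (integrableOn_image_iff_integrableOn_abs_det_fderiv_smul μ hS
      (fun x hx => (hder s x hx).hasFDerivWithinAt) (hinj s hs).injOn (fun _ => (1 : ℝ))).1
      (integrableOn_const (by rw [hmeas s hs]; exact hfin))
    simpa using h1
  obtain ⟨N, t, w, ht, hw1, hw⟩ := exists_det_weights (E := E) t₀ ht₀pos
  have hne : ∀ x ∈ S, ∀ s ∈ Icc 0 t₀, (fderiv ℝ φ x + s • fderiv ℝ D x).det ≠ 0 := by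
    intro x hx s hs h0
    rw [ContinuousLinearMap.det, LinearMap.det_eq_zero_iff_ker_ne_bot] at h0
    apply h0
    rw [LinearMap.ker_eq_bot']
    intro v hv
    have hv' : fderiv ℝ φ x v = -(s • fderiv ℝ D x v) := by
      have : fderiv ℝ φ x v + s • fderiv ℝ D x v = 0 := by simpa using hv
      exact eq_neg_of_add_eq_zero_left this
    have h1 := norm_le_of_antilipschitz hanti' hx.2.1.hasFDerivAt v
    have h2 : ‖fderiv ℝ D x v‖ ≤ L * ‖v‖ :=
      ((fderiv ℝ D x).le_opNorm v).trans
        (mul_le_mul_of_nonneg_right (norm_fderiv_le_of_lipschitz ℝ hD) (norm_nonneg _))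
    rw [hv', norm_neg, norm_smul, Real.norm_of_nonneg hs.1] at h1
    have h4 : ‖v‖ ≤ (K * L * s) * ‖v‖ := by
      calc ‖v‖ ≤ K * (s * ‖fderiv ℝ D x v‖) := h1
        _ ≤ K * (s * (L * ‖v‖)) := by gcongr; exact hs.1
        _ = _ := by ring
    have h5 := hsmall s hs
    have h6 : ‖v‖ ≤ 0 := by nlinarith [norm_nonneg v]
    exact norm_le_zero_iff.1 h6
  rw [← setIntegral_congr_set hSA]
  calc μ.real (φ '' A) = ∑ j, w j * μ.real (φ '' A) := by rw [← Finset.sum_mul, hw1, one_mul]
    _ = ∑ j, ∫ x in S, w j * |(fderiv ℝ φ x + t j • fderiv ℝ D x).det| ∂μ := by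
        refine Finset.sum_congr rfl fun j _ => ?_
        rw [integral_const_mul, hI _ (ht j)]
    _ = ∫ x in S, ∑ j, w j * |(fderiv ℝ φ x + t j • fderiv ℝ D x).det| ∂μ := by
        rw [integral_finsetSum]
        exact fun j _ => (hInt _ (ht j)).const_mul _
    _ ≤ _ := by
        refine setIntegral_mono_on ?_ (hint.mono_set inter_subset_left) hS fun x hx => ?_
        · exact integrable_finsetSum _ fun j _ => (hInt _ (ht j)).const_mul _
        · have h1 := (hder 1 x hx).fderiv
          simp only [one_smul] at h1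
          rw [h1]
          exact sum_abs_det_le ht _ _ (hw _ _) (hne x hx)

end

end Vale.Agent.P084
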