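import Vale.Agent.P084.John
import Vale.Agent.P084.Vol
import Vale.Agent.P084.Ae

open Set MeasureTheory Measure Filter Topology Function Metric
open scoped NNReal ENNReal RealInnerProductSpace

namespace Vale.Agent.P084

theorem lipschitz_indicator {E F : Type*} [NormedAddCommGroup E] [NormedSpace ℝ E]
    [NormedAddCommGroup F] {D : E → F} {L : ℝ≥0} (hD : LipschitzWith L D) {p : E → ℝ}
    (hp : Continuous p) (h0 : ∀ z, p z = 1 → D z = 0) :
    LipschitzWith L (indicator {z | p z < 1} D) := by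
  have key : ∀ x y, p x < 1 → ¬ p y < 1 → ‖D x‖ ≤ L * dist x y := by
    intro x y hx hy
    have hc : Continuous fun s : ℝ => p (x + s • (y - x)) := hp.comp (by fun_prop)
    obtain ⟨s, hs, hs1⟩ := intermediate_value_Icc (zero_le_one' ℝ) hc.continuousOn
      (show (1 : ℝ) ∈ Icc _ _ from ⟨by simpa using hx.le, by simpa using hy⟩)
    have h1 := hD.dist_le_mul x (x + s • (y - x))
    rw [h0 _ hs1, dist_zero_right, dist_self_add_right, norm_smul, Real.norm_of_nonneg hs.1,
      ← dist_eq_norm, dist_comm y x] at h1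
    calc ‖D x‖ ≤ L * (s * dist x y) := h1
      _ ≤ L * (1 * dist x y) := by gcongr; exact hs.2
      _ = _ := by rw [one_mul]
  refine LipschitzWith.of_dist_le_mul fun x y => ?_
  by_cases hx : p x < 1 <;> by_cases hy : p y < 1
  · rw [indicator_of_mem (show x ∈ {z | p z < 1} from hx),
      indicator_of_mem (show y ∈ {z | p z < 1} from hy)]
    exact hD.dist_le_mul x y
  · rw [indicator_of_mem (show x ∈ {z | p z < 1} from hx),
      indicator_of_notMem (show y ∉ {z | p z < 1} from hy), dist_zero_right]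
    exact key x y hx hy
  · rw [indicator_of_notMem (show x ∉ {z | p z < 1} from hx),
      indicator_of_mem (show y ∈ {z | p z < 1} from hy), dist_zero_left, dist_comm]
    exact key y x hy hx
  · rw [indicator_of_notMem (show x ∉ {z | p z < 1} from hx),
      indicator_of_notMem (show y ∉ {z | p z < 1} from hy), dist_self]
    positivity

/-- The synthesis map of a decomposition of the identity is a contraction. -/
theorem norm_sq_sum_le {E : Type*} [NormedAddCommGroup E] [InnerProductSpace ℝ E] {ι : Type*}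
    [Fintype ι] {c : ι → ℝ} {u : ι → E} (hc : ∀ i, 0 ≤ c i)
    (hu : ∀ y, ∑ i, (c i * ⟪u i, y⟫) • u i = y) (t : ι → ℝ) :
    ‖∑ i, (c i * t i) • u i‖ ^ 2 ≤ ∑ i, c i * t i ^ 2 := by
  set y := ∑ i, (c i * t i) • u i with hy
  have h1 : ‖y‖ ^ 2 = ∑ i, c i * t i * ⟪u i, y⟫ := by
    rw [← real_inner_self_eq_norm_sq]
    conv_lhs => enter [2]; rw [hy]
    rw [sum_inner]
    exact Finset.sum_congr rfl fun i _ => by rw [real_inner_smul_left]
  have h2 : ‖y‖ ^ 2 = ∑ i, c i * ⟪u i, y⟫ ^ 2 := by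
    rw [← real_inner_self_eq_norm_sq]
    conv_lhs => enter [2]; rw [← hu y]
    rw [sum_inner]
    exact Finset.sum_congr rfl fun i _ => by rw [real_inner_smul_left]; ring
  have h3 : 2 * ∑ i, c i * t i * ⟪u i, y⟫ ≤ ∑ i, c i * t i ^ 2 + ∑ i, c i * ⟪u i, y⟫ ^ 2 := by
    rw [Finset.mul_sum, ← Finset.sum_add_distrib]
    refine Finset.sum_le_sum fun i _ => ?_
    nlinarith [mul_nonneg (hc i) (sq_nonneg (t i - ⟪u i, y⟫))]
  linarith

theorem sum_sq_apply_le {n : ℕ} (l : EuclideanSpace ℝ (Fin n) →L[ℝ] ℝ) (hl : ‖l‖ ≤ 1)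
    (b : OrthonormalBasis (Fin n) ℝ (EuclideanSpace ℝ (Fin n))) : ∑ j, l (b j) ^ 2 ≤ 1 := by
  let w := (InnerProductSpace.toDual ℝ (EuclideanSpace ℝ (Fin n))).symm l
  have hw : ‖w‖ ≤ 1 := by simpa [w] using hl
  have h1 : ∀ v, l v = ⟪w, v⟫ := fun v => by simp [w]
  simp only [h1]
  rw [b.sum_sq_inner_left]
  nlinarith [norm_nonneg w]

/-- Extension of a map given on a set by coordinates along a John decomposition. -/
theorem exists_extension {n : ℕ} {ι : Type*} [Fintype ι] {c : ι → ℝ}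
    {u : ι → EuclideanSpace ℝ (Fin n)} (hc : ∀ i, 0 ≤ c i) (hcn : ∑ i, c i = n)
    (hu : ∀ y, ∑ i, (c i * ⟪u i, y⟫) • u i = y)
    {φ : EuclideanSpace ℝ (Fin n) → EuclideanSpace ℝ (Fin n)} {s : Set (EuclideanSpace ℝ (Fin n))}
    (hφ : ∀ i, LipschitzOnWith 1 (fun z => ⟪u i, φ z⟫) s) :
    ∃ (Φ : EuclideanSpace ℝ (Fin n) → EuclideanSpace ℝ (Fin n)) (K : ℝ≥0), LipschitzWith K Φ ∧
      (∀ z ∈ s, Φ z = φ z) ∧ ∀ᵐ z, ∀ b : OrthonormalBasis (Fin n) ℝ (EuclideanSpace ℝ (Fin n)),
        ∑ j, ‖fderiv ℝ Φ z (b j)‖ ^ 2 ≤ n := by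
  choose g hg hgs using fun i => (hφ i).extend_real
  refine ⟨fun z => ∑ i, (c i * g i z) • u i, ∑ i, ‖c i • u i‖₊, ?_, ?_, ?_⟩
  · refine LipschitzWith.of_dist_le_mul fun x y => ?_
    rw [dist_eq_norm, ← Finset.sum_sub_distrib, NNReal.coe_sum, Finset.sum_mul]
    refine (norm_sum_le _ _).trans (Finset.sum_le_sum fun i _ => ?_)
    have h1 := (hg i).dist_le_mul x y
    rw [NNReal.coe_one, one_mul, Real.dist_eq] at h1
    rw [← sub_smul, ← mul_sub, mul_comm, mul_smul, norm_smul, coe_nnnorm, mul_comm]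
    gcongr
    exact h1
  · intro z hz
    conv_rhs => rw [← hu (φ z)]
    exact Finset.sum_congr rfl fun i _ => by rw [← hgs i hz]
  · have h1 : ∀ᵐ z : EuclideanSpace ℝ (Fin n), ∀ i, DifferentiableAt ℝ (g i) z :=
      ae_all_iff.2 fun i => (hg i).ae_differentiableAt
    filter_upwards [h1] with z hz b
    have h2 : HasFDerivAt (fun z => ∑ i, (c i * g i z) • u i)
        (∑ i, (c i • fderiv ℝ (g i) z).smulRight (u i)) z :=
      HasFDerivAt.fun_sum fun i _ => ((hz i).hasFDerivAt.const_mul (c i)).smul_const (u i)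
    rw [h2.fderiv]
    calc ∑ j, ‖(∑ i, (c i • fderiv ℝ (g i) z).smulRight (u i)) (b j)‖ ^ 2
        ≤ ∑ j, ∑ i, c i * fderiv ℝ (g i) z (b j) ^ 2 := by
          refine Finset.sum_le_sum fun j _ => ?_
          have := norm_sq_sum_le hc hu (fun i => fderiv ℝ (g i) z (b j))
          simpa using this
      _ = ∑ i, c i * ∑ j, fderiv ℝ (g i) z (b j) ^ 2 := by
          rw [Finset.sum_comm]
          exact Finset.sum_congr rfl fun i _ => by rw [Finset.mul_sum]
      _ ≤ ∑ i, c i * 1 := by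
          refine Finset.sum_le_sum fun i _ => mul_le_mul_of_nonneg_left ?_ (hc i)
          exact sum_sq_apply_le _ (by simpa using norm_fderiv_le_of_lipschitz ℝ (hg i)) b
      _ = n := by simp [hcn]

/-- One half of the volume comparison. -/
theorem step {X Y : Type*} [NormedAddCommGroup X] [NormedSpace ℝ X] [NormedAddCommGroup Y]
    [NormedSpace ℝ Y] {n : ℕ} (hn : 0 < n) (JX : X ≃L[ℝ] EuclideanSpace ℝ (Fin n))
    (JY : Y ≃L[ℝ] EuclideanSpace ℝ (Fin n)) (hJX : ∀ x, ‖x‖ ≤ ‖JX x‖)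
    {ι : Type*} [Fintype ι] {c : ι → ℝ} {u : ι → EuclideanSpace ℝ (Fin n)} (hc : ∀ i, 0 ≤ c i)
    (hcn : ∑ i, c i = n) (hu : ∀ y, ∑ i, (c i * ⟪u i, y⟫) • u i = y)
    (huY : ∀ i y, |⟪u i, JY y⟫| ≤ ‖y‖) {F : X → Y} {G : Y → X} {K L : ℝ≥0}
    (hF : LipschitzWith K F) (hG : LipschitzWith L G) (hGF : LeftInverse G F)
    (hFG : RightInverse G F) (hFn : ∀ x, ‖F x‖ = ‖x‖)
    (hFs : ∀ x y, ‖x‖ = 1 → ‖y‖ = 1 → ‖F x - F y‖ = ‖x - y‖) :
    volume.real (JY '' ball 0 1) ≤ volume.real (JX '' ball 0 1) ∧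
      (volume.real (JX '' ball 0 1) ≤ volume.real (JY '' ball 0 1) →
        ∀ x y, ‖x‖ = 1 → ‖y‖ = 1 → ‖JY (F x) - JY (F y)‖ ≤ ‖JX x - JX y‖) := by
  let φ : EuclideanSpace ℝ (Fin n) → EuclideanSpace ℝ (Fin n) := fun z => JY (F (JX.symm z))
  let ψ : EuclideanSpace ℝ (Fin n) → EuclideanSpace ℝ (Fin n) := fun z => JX (G (JY.symm z))
  have hφ : LipschitzWith _ φ := JY.lipschitz.comp (hF.comp JX.symm.lipschitz)
  have hψ : LipschitzWith _ ψ := JX.lipschitz.comp (hG.comp JY.symm.lipschitz)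
  have hψφ : LeftInverse ψ φ := fun z => by simp [φ, ψ, hGF _]
  have hφψ : RightInverse ψ φ := fun z => by simp [φ, ψ, hFG _]
  let p : EuclideanSpace ℝ (Fin n) → ℝ := fun z => ‖JX.symm z‖
  have hp : Continuous p := JX.symm.continuous.norm
  set A : Set (EuclideanSpace ℝ (Fin n)) := JX '' ball 0 1 with hA
  have hAp : A = {z | p z < 1} := by
    ext z
    simp only [hA, ContinuousLinearEquiv.image_eq_preimage_symm, mem_preimage, mem_ball_zero_iff,
      mem_ofPred_eq, p]
  have hAo : IsOpen A := by rw [hAp]; exact isOpen_lt hp continuous_const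
  have hAc : Convex ℝ A := (convex_ball 0 1).linear_image JX.toLinearEquiv.toLinearMap
  have hAfin : volume A ≠ ∞ :=
    (JX.lipschitz.isBounded_image isBounded_ball).measure_lt_top.ne
  have hφA : φ '' A = JY '' ball 0 1 := by
    rw [hA, image_image]
    simp only [φ, ContinuousLinearEquiv.symm_apply_apply]
    rw [← image_image JY F]
    congr 1
    ext y
    simp only [mem_image, mem_ball_zero_iff]
    constructor
    · rintro ⟨x, hx, rfl⟩; rwa [hFn]
    · intro hy
      exact ⟨G y, by rwa [← hFn, hFG], hFG y⟩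
  have hBfin : volume (φ '' A) ≠ ∞ := by
    rw [hφA]
    exact (JY.lipschitz.isBounded_image isBounded_ball).measure_lt_top.ne
  have hlip : ∀ i, LipschitzOnWith 1 (fun z => ⟪u i, φ z⟫) {z | p z = 1} := by
    intro i
    refine LipschitzOnWith.of_dist_le_mul fun z hz w hw => ?_
    rw [NNReal.coe_one, one_mul, Real.dist_eq, ← inner_sub_right, dist_eq_norm]
    simp only [φ]
    rw [← map_sub]
    refine (huY i _).trans ?_
    rw [hFs _ _ hz hw, ← map_sub]
    simpa using hJX (JX.symm (z - w))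
  obtain ⟨Φ, KΦ, hΦ, hΦs, hΦd⟩ := exists_extension hc hcn hu hlip
  have hD := lipschitz_indicator (hΦ.sub hφ) hp (fun z hz => by simp [hΦs z hz])
  rw [← hAp] at hD
  have hfd : ∀ z ∈ A, fderiv ℝ (fun y => φ y + indicator A (fun x => Φ x - φ x) y) z
      = fderiv ℝ Φ z := by
    intro z hz
    apply Filter.EventuallyEq.fderiv_eq
    filter_upwards [hAo.mem_nhds hz] with y hy
    rw [indicator_of_mem hy]; abel
  have hdet : ∀ᵐ z, |(fderiv ℝ Φ z).det| ≤ 1 ∧
      (1 ≤ |(fderiv ℝ Φ z).det| → ∀ v, ‖fderiv ℝ Φ z v‖ ≤ ‖v‖) :=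
    hΦd.mono fun z hz => abs_det_le_one_and_contraction hn _ hz
  have : IsFiniteMeasure (volume.restrict A) := ⟨by simpa using hAfin.lt_top⟩
  have hint : IntegrableOn (fun z => |(fderiv ℝ Φ z).det|) A := by
    refine Integrable.of_bound (C := 1) ?_ ?_
    · exact (continuous_abs.measurable.comp (ContinuousLinearMap.continuous_det.measurable.comp
        (measurable_fderiv ℝ Φ))).aestronglyMeasurable
    · filter_upwards [ae_restrict_of_ae hdet] with z hz
      simpa using hz.1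
  have hmain := measureReal_image_le_integral volume hφ hψ hψφ hφψ hD hAo.measurableSet hBfin
    (fun x hx => indicator_of_notMem hx _)
    (hint.congr_fun (fun z hz => by simp only [hfd z hz]) hAo.measurableSet)
  rw [setIntegral_congr_fun hAo.measurableSet (g := fun z => |(fderiv ℝ Φ z).det|)
    (fun z hz => by simp only [hfd z hz]), hφA] at hmain
  have hnn : 0 ≤ᵐ[volume.restrict A] fun z => 1 - |(fderiv ℝ Φ z).det| := by
    filter_upwards [ae_restrict_of_ae hdet] with z hz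
    exact sub_nonneg.2 hz.1
  have hsub : ∫ z in A, (1 - |(fderiv ℝ Φ z).det|)
      = volume.real A - ∫ z in A, |(fderiv ℝ Φ z).det| := by
    rw [integral_sub (integrable_const _) hint]; simp
  have hpos := integral_nonneg_of_ae hnn
  refine ⟨by linarith, fun hle x y hx hy => ?_⟩
  have hz : ∫ z in A, (1 - |(fderiv ℝ Φ z).det|) = 0 := by linarith
  rw [integral_eq_zero_iff_of_nonneg_ae hnn ((integrable_const _).sub hint), EventuallyEq,
    ae_restrict_iff' hAo.measurableSet] at hz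
  have hcontr : ∀ᵐ z, z ∈ A → ∀ v, ‖fderiv ℝ Φ z v‖ ≤ ‖v‖ := by
    filter_upwards [hz, hdet] with z h1 h2 hzA
    have := h1 hzA
    simp only [Pi.zero_apply] at this
    exact h2.2 (by linarith)
  have hL : LipschitzOnWith 1 Φ A := by
    refine LipschitzOnWith.of_dist_le_mul fun a ha b hb => ?_
    rw [NNReal.coe_one, one_mul, dist_eq_norm, dist_eq_norm]
    exact norm_sub_le_of_ae_fderiv volume hΦ hAo hAc hcontr hb ha
  have hL' := hL.closure hΦ.continuous.continuousOn
  have hcl : ∀ x : X, ‖x‖ = 1 → JX x ∈ closure A := by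
    intro x hx
    apply image_closure_subset_closure_image JX.continuous
    rw [closure_ball _ one_ne_zero]
    exact ⟨x, by simp [hx], rfl⟩
  have h1 := hL'.dist_le_mul _ (hcl x hx) _ (hcl y hy)
  rw [NNReal.coe_one, one_mul, dist_eq_norm, dist_eq_norm, hΦs _ (by simp [p, hx]),
    hΦs _ (by simp [p, hy])] at h1
  simpa [φ] using h1

end Vale.Agent.P084
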